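import Vale.Agent.P091.H74.Spec
import Vale.Agent.P091.PET.H514.Avg

/-!
# P091, row GRIDROW: the statement  (helper750)

One grid `(r, a)` of helper514 (intervals `[a + q L, a + (q+1) L)`, `L = r 2^i`, `i ≤ m + 1`) on
the integers.  `ξ k` = the exact letters (frequency divided by `n`), `u x` = the letter of `x`,
`b x` = number of the scales `i < b x` which are used at `x` (the longest interval has length
`4 r 2^(b x - 1) = r 2^(b x + 1)`), `V k` = a region which contains all intervals used by the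
points with letter `k`, `W` = the alive points.
-/

set_option autoImplicit false

open Finset

namespace Vale.Agent.P091.H750

open Vale.Agent.P091

/-- **GRIDROW.** -/
def GRIDROW : Prop := ∀ C0 : ℝ, 0 ≤ C0 → ∃ C : ℝ, 0 ≤ C ∧ ∀ (D : ℝ), 2 ≤ D →
  ∀ (r m n : ℕ) (a : ℤ) (p : ℤ → ℝ), 1 ≤ r → n ≤ r * 2 ^ (m + 1) →
  (∀ y, 0 ≤ p y) → (∀ y, p y ≤ Real.exp D) →
  (∀ s : ℤ, ∑ y ∈ Ico s (s + (r * 2 ^ (m + 1) : ℕ)), p y ≤ 2 * (r * 2 ^ (m + 1) : ℕ)) →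
  ∀ (U : Type) [Fintype U] (ξ : U → ℝ) (V : U → Finset ℤ) (u : ℤ → U) (b : ℤ → ℕ)
    (W : Finset ℤ), W ⊆ Ico 0 (n : ℤ) →
    (∀ k, m * r * |ξ k| ≤ 1) →
    (∀ x ∈ W, b x ≤ m) →
    (∀ x ∈ W, 1 ≤ b x → ∀ s : ℤ, s ≤ x → x < s + (r * 2 ^ (b x + 1) : ℕ) →
      Ico s (s + (r * 2 ^ (b x + 1) : ℕ)) ⊆ V (u x)) →
    (∑ k, ((V k).card : ℝ) ≤ Real.exp (C0 * D) * (r * 2 ^ (m + 1) : ℕ)) →
    (∀ x ∈ W, ∀ (s : ℤ) (L : ℕ), r ≤ L → L ≤ r * 2 ^ (m + 1) → s ≤ x → x < s + L →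
      ∑ y ∈ Ico s (s + L), p y ≤ Real.log D ^ 2 * L) →
    ∑ x ∈ W, ‖∑ i ∈ range (b x),
        PET.T ((r : ℤ) * 2 ^ i) a (fun y => (p y : ℂ) * Spec.e (-(ξ (u x) * y))) x‖
      ≤ C * D * (r * 2 ^ (m + 1) : ℕ)

end Vale.Agent.P091.H750
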