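import Vale.Agent.P091.H750.Tree0
import Vale.Agent.P091.PET.H514.Avg

/-!
# P091, row GRIDROW: the shift `PET.T` on one top node of the grid and the integer tree (helper750)
-/

set_option autoImplicit false

open Finset

noncomputable section

namespace Vale.Agent.P091.H750

open Vale.Agent.P091

theorem norm_e_sub_e' (s t : ℝ) : ‖Spec.e s - Spec.e t‖ ≤ 2 * Real.pi * |s - t| := by
  have h1 : Spec.e s - Spec.e t = Spec.e t * (Spec.e (s - t) - 1) := by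
    rw [mul_sub, mul_one]
    congr 1
    unfold Spec.e
    rw [← Complex.exp_add]
    congr 1; push_cast; ring
  rw [h1, norm_mul, norm_e', one_mul]
  unfold Spec.e
  rw [show (2 * (Real.pi:ℂ) * Complex.I * (s - t : ℝ))
    = Complex.I * ((2 * Real.pi * (s - t) : ℝ) : ℂ) by push_cast; ring]
  refine (Real.norm_exp_I_mul_ofReal_sub_one_le).trans ?_
  rw [Real.norm_eq_abs, abs_mul, abs_of_pos (by positivity)]

/-- sums over blocks of `r` consecutive integers -/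
theorem sum_blocks {E : Type*} [AddCommMonoid E] {r : ℕ} (h : ℕ → E) {c d : ℕ} (hcd : c ≤ d) :
    ∑ i ∈ Ico c d, ∑ t ∈ range r, h (r * i + t) = ∑ w ∈ Ico (r * c) (r * d), h w := by
  induction d, hcd using Nat.le_induction with
  | base => simp
  | succ d hcd ih =>
    rw [sum_Ico_succ_top hcd, ih, ← sum_Ico_consecutive h (Nat.mul_le_mul_left r hcd)
      (Nat.mul_le_mul_left r (Nat.le_succ d))]
    congr 1
    rw [sum_Ico_eq_sum_range]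
    have : r * (d + 1) - r * d = r := by rw [← Nat.mul_sub]; simp
    rw [this]

theorem sum_nd {E : Type*} [AddCommMonoid E] {r : ℕ} (h : ℕ → E) (n j b : ℕ) :
    ∑ i ∈ Spec.nd n j b, ∑ t ∈ range r, h (r * i + t)
      = ∑ w ∈ Ico (b * (r * 2 ^ (n - j))) ((b + 1) * (r * 2 ^ (n - j))), h w := by
  unfold Spec.nd
  rw [sum_blocks h (Nat.mul_le_mul_right _ (show b ≤ b + 1 by omega))]
  have e1 : r * (b * 2 ^ (n - j)) = b * (r * 2 ^ (n - j)) := by ring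
  have e2 : r * ((b + 1) * 2 ^ (n - j)) = (b + 1) * (r * 2 ^ (n - j)) := by ring
  rw [e1, e2]

/-- sums over intervals of `ℤ` and of `ℕ` -/
theorem sum_shift {E : Type*} [AddCommMonoid E] (h : ℤ → E) (A : ℤ) (c d : ℕ) :
    ∑ w ∈ Ico c d, h (A + (w : ℤ)) = ∑ y ∈ Ico (A + (c:ℤ)) (A + (d:ℤ)), h y := by
  refine sum_nbij' (fun w => A + (w : ℤ)) (fun y => (y - A).toNat) ?_ ?_ ?_ ?_ ?_
  · intro w hw; rw [mem_Ico] at hw ⊢; omega
  · intro y hy; rw [mem_Ico] at hy ⊢; omega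
  · intro w _; simp
  · intro y hy; rw [mem_Ico] at hy; show A + ((y - A).toNat : ℤ) = y; omega
  · intro w _; rfl

/-- leaf values (half of the block average) -/
def leaf (r : ℕ) (p : ℤ → ℝ) (A : ℤ) (i : ℕ) : ℝ := (∑ t ∈ range r, p (A + (r * i + t : ℕ))) / (2 * r)

theorem leaf_nonneg {r : ℕ} {p : ℤ → ℝ} (hp : ∀ y, 0 ≤ p y) (A : ℤ) (i : ℕ) :
    0 ≤ leaf r p A i := by
  unfold leaf
  have := sum_nonneg (s := range r) (fun t _ => hp (A + (r * i + t : ℕ)))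
  positivity

theorem leaf_le {r : ℕ} (hr : 1 ≤ r) {p : ℤ → ℝ} {M : ℝ} (hM : 0 ≤ M) (hp : ∀ y, p y ≤ M) (A : ℤ)
    (i : ℕ) : leaf r p A i ≤ M := by
  unfold leaf
  have hr0 : (0:ℝ) < r := by exact_mod_cast hr
  rw [div_le_iff₀ (by positivity)]
  refine (sum_le_sum fun t _ => hp _).trans ?_
  rw [sum_const, card_range, nsmul_eq_mul]
  nlinarith

theorem av_leaf {r : ℕ} (hr : 1 ≤ r) (p : ℤ → ℝ) (A : ℤ) (n j b : ℕ) :
    Spec.av n j b (leaf r p A)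
      = (∑ y ∈ Ico (A + ((b * (r * 2 ^ (n - j)) : ℕ) : ℤ))
          (A + (((b + 1) * (r * 2 ^ (n - j)) : ℕ) : ℤ)), p y) / (2 * (r * 2 ^ (n - j))) := by
  have hr0 : (0:ℝ) < r := by exact_mod_cast hr
  unfold Spec.av leaf
  rw [← sum_div, sum_nd (fun w => p (A + (w : ℤ))) n j b, sum_shift p A, div_div]
  congr 1; ring

/-- the discretised modulated function in relative coordinates -/
def Gd (r : ℕ) (p : ℤ → ℝ) (A : ℤ) (ξ : ℝ) (w : ℕ) : ℂ :=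
  (p (A + (w : ℤ)) : ℂ) * Spec.e (-(ξ * r * ((w / r : ℕ) : ℝ)))

theorem BB_leaf {r : ℕ} (hr : 1 ≤ r) (p : ℤ → ℝ) (A : ℤ) (ξ : ℝ) (n j b : ℕ) :
    Spec.BB n (leaf r p A) (ξ * r) j b
      = (∑ w ∈ Ico (b * (r * 2 ^ (n - j))) ((b + 1) * (r * 2 ^ (n - j))), Gd r p A ξ w)
        / (2 * (r * 2 ^ (n - j))) := by
  have hr0 : (0:ℝ) < r := by exact_mod_cast hr
  have hrc : (r:ℂ) ≠ 0 := by exact_mod_cast hr0.ne'
  unfold Spec.BB Spec.avC
  rw [← sum_nd (Gd r p A ξ) n j b]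
  have h1 : ∀ i, ((leaf r p A i : ℝ) : ℂ) * Spec.e (-(ξ * r * i))
      = (∑ t ∈ range r, Gd r p A ξ (r * i + t)) / (2 * r) := by
    intro i
    unfold leaf
    push_cast
    rw [div_mul_eq_mul_div, sum_mul]
    congr 1
    refine sum_congr rfl fun t ht => ?_
    unfold Gd
    have h2 : (r * i + t) / r = i := by
      rw [Nat.mul_add_div (by omega), Nat.div_eq_of_lt (mem_range.1 ht), add_zero]
    rw [h2]
    push_cast
    rfl
  rw [sum_congr rfl fun i _ => h1 i, ← sum_div, div_div]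
  congr 1; ring

theorem dB_leaf {r : ℕ} (hr : 1 ≤ r) (p : ℤ → ℝ) (A : ℤ) (ξ : ℝ) {m i a0 : ℕ} (hi : i < m) :
    2 * Spec.dB (m + 1) (leaf r p A) (ξ * r) (m - 1 - i) a0
      = ((∑ w ∈ Ico (a0 * (4 * (r * 2 ^ i))) (a0 * (4 * (r * 2 ^ i)) + 2 * (r * 2 ^ i)), Gd r p A ξ w)
        - ∑ w ∈ Ico (a0 * (4 * (r * 2 ^ i)) + 2 * (r * 2 ^ i))
            (a0 * (4 * (r * 2 ^ i)) + 4 * (r * 2 ^ i)), Gd r p A ξ w) / (4 * (r * 2 ^ i)) := by
  unfold Spec.dB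
  rw [BB_leaf hr, BB_leaf hr]
  have h1 : m + 1 - (m - 1 - i + 1) = i + 1 := by omega
  rw [h1]
  have e1 : 2 * a0 * (r * 2 ^ (i + 1)) = a0 * (4 * (r * 2 ^ i)) := by rw [pow_succ]; ring
  have e2 : (2 * a0 + 1) * (r * 2 ^ (i + 1)) = a0 * (4 * (r * 2 ^ i)) + 2 * (r * 2 ^ i) := by
    rw [pow_succ]; ring
  have e3 : (2 * a0 + 1 + 1) * (r * 2 ^ (i + 1)) = a0 * (4 * (r * 2 ^ i)) + 4 * (r * 2 ^ i) := by
    rw [pow_succ]; ring
  rw [e1, e2, e3, pow_succ]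
  have hr0 : (0:ℝ) < r := by exact_mod_cast hr
  have hrc : (r:ℂ) ≠ 0 := by exact_mod_cast hr0.ne'
  have h2c : (2:ℂ) ^ i ≠ 0 := pow_ne_zero _ two_ne_zero
  field_simp
  ring

theorem sG_eq {r : ℕ} (hr : 1 ≤ r) {m i z : ℕ} (hi : i < m) :
    PET.sG ((r : ℤ) * 2 ^ i) ((z : ℤ) % (4 * ((r : ℤ) * 2 ^ i)))
      = Spec.sg (m + 1) (m - 1 - i) (z / r) := by
  have hq : 0 < r * 2 ^ i := by positivity
  have h1 : (z / r) / 2 ^ (m + 1 - (m - 1 - i) - 2) = z / (r * 2 ^ i) := by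
    rw [Nat.div_div_eq_div_mul]
    congr 3; omega
  unfold PET.sG Spec.sg
  rw [h1]
  have h2 : ((z : ℤ) % (4 * ((r : ℤ) * 2 ^ i))) = ((z % (4 * (r * 2 ^ i)) : ℕ) : ℤ) := by
    push_cast; rfl
  have h3 : ((r : ℤ) * 2 ^ i) = ((r * 2 ^ i : ℕ) : ℤ) := by push_cast; rfl
  rw [h2, h3]
  have h4 : z / (r * 2 ^ i) % 4 = z % (4 * (r * 2 ^ i)) / (r * 2 ^ i) := by
    rw [Nat.mul_comm 4, Nat.mod_mul_right_div_self]
  rw [h4]
  set q := r * 2 ^ i with hqd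
  set s := z % (4 * q) with hs
  have hs4 : s < 4 * q := Nat.mod_lt _ (by omega)
  have c1 : (s / q = 0) ↔ s < q := by
    rw [Nat.div_eq_zero_iff]; omega
  have c2 : (s / q = 3) ↔ 3 * q ≤ s := by
    rw [Nat.div_eq_iff (by omega)]; omega
  have c3 : ((s:ℤ) < (q:ℤ) ∨ 3 * (q:ℤ) ≤ (s:ℤ)) ↔ (s / q = 0 ∨ s / q = 3) := by
    rw [c1, c2]; norm_cast
  exact if_congr c3 rfl rfl

theorem T_eq {r : ℕ} (hr : 1 ≤ r) {m i z : ℕ} (hi : i < m) {a A : ℤ}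
    (hA : ((r * 2 ^ (m + 1) : ℕ) : ℤ) ∣ A - a) (F : ℤ → ℂ) :
    PET.T ((r : ℤ) * 2 ^ i) a F (A + z)
      = (Spec.sg (m + 1) (m - 1 - i) (z / r) : ℂ)
        * (((∑ w ∈ Ico (z / (4 * (r * 2 ^ i)) * (4 * (r * 2 ^ i)))
              (z / (4 * (r * 2 ^ i)) * (4 * (r * 2 ^ i)) + 2 * (r * 2 ^ i)), F (A + (w : ℤ)))
        - ∑ w ∈ Ico (z / (4 * (r * 2 ^ i)) * (4 * (r * 2 ^ i)) + 2 * (r * 2 ^ i))
            (z / (4 * (r * 2 ^ i)) * (4 * (r * 2 ^ i)) + 4 * (r * 2 ^ i)), F (A + (w : ℤ)))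
          / (4 * (r * 2 ^ i))) := by
  have hq : 0 < r * 2 ^ i := by positivity
  obtain ⟨c, hc⟩ := hA
  have hdiv : (4 * (r * 2 ^ i)) ∣ r * 2 ^ (m + 1) := by
    refine ⟨2 ^ (m - 1 - i), ?_⟩
    have : 2 ^ (m + 1) = 4 * 2 ^ i * 2 ^ (m - 1 - i) := by
      rw [show (4:ℕ) = 2 ^ 2 by norm_num, ← pow_add, ← pow_add]; congr 1; omega
    rw [this]; ring
  obtain ⟨e, he⟩ := hdiv
  have hmod : (A + (z:ℤ) - a) % (4 * ((r : ℤ) * 2 ^ i)) = ((z % (4 * (r * 2 ^ i)) : ℕ) : ℤ) := by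
    have h1 : A + (z:ℤ) - a = z + (4 * ((r : ℤ) * 2 ^ i)) * (e * c) := by
      have h2 : A - a = ((4 * (r * 2 ^ i) * e : ℕ) : ℤ) * c := by rw [hc, he]
      push_cast at h2
      linear_combination h2
    rw [h1, Int.add_mul_emod_self_left]
    push_cast; rfl
  unfold PET.T
  rw [hmod]
  have hsG := sG_eq hr (m := m) (z := z) hi
  have h2 : ((z : ℤ) % (4 * ((r : ℤ) * 2 ^ i))) = ((z % (4 * (r * 2 ^ i)) : ℕ) : ℤ) := by
    push_cast; rfl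
  rw [h2] at hsG
  rw [hsG]
  set q := r * 2 ^ i with hqd
  have hqz : ((r : ℤ) * 2 ^ i) = ((q : ℕ) : ℤ) := by rw [hqd]; push_cast; rfl
  rw [hqz]
  set a0 := z / (4 * q) with ha0
  have hz : A + (z:ℤ) - ((z % (4 * q) : ℕ) : ℤ) = A + ((a0 * (4 * q) : ℕ) : ℤ) := by
    have := Nat.div_add_mod z (4 * q)
    have h3 : z = a0 * (4 * q) + z % (4 * q) := by rw [ha0]; linarith
    omega
  rw [hz]
  have hS : ∑ v ∈ Ico (0:ℤ) (4 * (q : ℤ)), (PET.sS q v : ℂ) * F (A + ((a0 * (4 * q) : ℕ) : ℤ) + v)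
      = (∑ w ∈ Ico (a0 * (4 * q)) (a0 * (4 * q) + 2 * q), F (A + (w : ℤ)))
        - ∑ w ∈ Ico (a0 * (4 * q) + 2 * q) (a0 * (4 * q) + 4 * q), F (A + (w : ℤ)) := by
    have h4 := sum_shift (fun v => (PET.sS q v : ℂ) * F (A + ((a0 * (4 * q) : ℕ) : ℤ) + v)) 0 0 (4 * q)
    have h5 : (4 * (q:ℤ)) = 0 + ((4 * q : ℕ) : ℤ) := by push_cast; ring
    rw [h5]
    simp only [zero_add, Nat.cast_zero] at h4 ⊢
    rw [← h4, ← sum_Ico_consecutive _ (show 0 ≤ 2 * q by omega) (show 2 * q ≤ 4 * q by omega)]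
    have h6 : ∀ w ∈ Ico 0 (2 * q), (PET.sS q w : ℂ) * F (A + ((a0 * (4 * q) : ℕ) : ℤ) + w)
        = F (A + ((w + a0 * (4 * q) : ℕ) : ℤ)) := by
      intro w hw
      rw [mem_Ico] at hw
      unfold PET.sS
      rw [if_pos (by omega)]
      push_cast
      rw [one_mul]
      congr 1; ring
    have h7 : ∀ w ∈ Ico (2 * q) (4 * q), (PET.sS q w : ℂ) * F (A + ((a0 * (4 * q) : ℕ) : ℤ) + w)
        = - F (A + ((w + a0 * (4 * q) : ℕ) : ℤ)) := by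
      intro w hw
      rw [mem_Ico] at hw
      unfold PET.sS
      rw [if_neg (by omega)]
      push_cast
      rw [neg_one_mul]
      congr 2; ring
    rw [sum_congr rfl h6, sum_congr rfl h7, sum_neg_distrib, ← sub_eq_add_neg]
    rw [sum_Ico_add' (fun w : ℕ => F (A + (w : ℤ))) 0 (2 * q) (a0 * (4 * q)),
      sum_Ico_add' (fun w : ℕ => F (A + (w : ℤ))) (2 * q) (4 * q) (a0 * (4 * q)),
      Nat.zero_add, Nat.add_comm (2 * q), Nat.add_comm (4 * q)]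
  rw [hS]
  push_cast
  rw [div_mul_eq_mul_div, mul_div_assoc]
  have h8 : (q:ℂ) = r * 2 ^ i := by rw [hqd]; push_cast; rfl
  rw [h8]

theorem T_est {r : ℕ} (hr : 1 ≤ r) {m i z : ℕ} (hi : i < m) {a A : ℤ}
    (hA : ((r * 2 ^ (m + 1) : ℕ) : ℤ) ∣ A - a) {p : ℤ → ℝ} (hp : ∀ y, 0 ≤ p y) (ξ : ℝ) {lam : ℝ}
    (hlam : ∑ y ∈ Ico (A + ((z / (4 * (r * 2 ^ i)) * (4 * (r * 2 ^ i)) : ℕ) : ℤ))
      (A + ((z / (4 * (r * 2 ^ i)) * (4 * (r * 2 ^ i)) + 4 * (r * 2 ^ i) : ℕ) : ℤ)), p y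
        ≤ lam * (4 * (r * 2 ^ i) : ℕ)) :
    ‖PET.T ((r : ℤ) * 2 ^ i) a (fun y => (p y : ℂ) * Spec.e (-(ξ * y))) (A + z)
      - 2 * Spec.e (-(ξ * A)) * ((Spec.sg (m + 1) (m - 1 - i) (z / r) : ℂ)
        * Spec.dB (m + 1) (leaf r p A) (ξ * r) (m - 1 - i)
            (Spec.anc (m + 1) (m - 1 - i) (z / r)))‖
      ≤ lam * (2 * Real.pi * (|ξ| * r)) := by
  have hq : 0 < r * 2 ^ i := by positivity
  have hanc : Spec.anc (m + 1) (m - 1 - i) (z / r) = z / (4 * (r * 2 ^ i)) := by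
    unfold Spec.anc
    rw [Nat.div_div_eq_div_mul]
    congr 1
    have : m + 1 - (m - 1 - i) = i + 2 := by omega
    rw [this, pow_add]; ring
  rw [hanc, T_eq hr hi hA]
  set a0 := z / (4 * (r * 2 ^ i)) with ha0
  have hd := dB_leaf hr p A ξ (m := m) (i := i) (a0 := a0) hi
  set q := r * 2 ^ i with hqd
  have hqc : ((r:ℂ) * 2 ^ i) = (q : ℂ) := by rw [hqd]; push_cast; rfl
  rw [hqc] at hd ⊢
  set θ := Spec.e (-(ξ * A)) with hθ
  have e1 : (Spec.sg (m + 1) (m - 1 - i) (z / r) : ℂ)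
        * (((∑ w ∈ Ico (a0 * (4 * q)) (a0 * (4 * q) + 2 * q),
              (p (A + (w : ℤ)) : ℂ) * Spec.e (-(ξ * ((A + (w : ℤ) : ℤ) : ℝ))))
        - ∑ w ∈ Ico (a0 * (4 * q) + 2 * q) (a0 * (4 * q) + 4 * q),
            (p (A + (w : ℤ)) : ℂ) * Spec.e (-(ξ * ((A + (w : ℤ) : ℤ) : ℝ))))
          / (4 * (q:ℂ)))
      - 2 * θ * ((Spec.sg (m + 1) (m - 1 - i) (z / r) : ℂ)
        * Spec.dB (m + 1) (leaf r p A) (ξ * r) (m - 1 - i) a0)
      = (Spec.sg (m + 1) (m - 1 - i) (z / r) : ℂ)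
        * (((∑ w ∈ Ico (a0 * (4 * q)) (a0 * (4 * q) + 2 * q),
              ((p (A + (w : ℤ)) : ℂ) * Spec.e (-(ξ * ((A + (w : ℤ) : ℤ) : ℝ))) - θ * Gd r p A ξ w))
        - ∑ w ∈ Ico (a0 * (4 * q) + 2 * q) (a0 * (4 * q) + 4 * q),
            ((p (A + (w : ℤ)) : ℂ) * Spec.e (-(ξ * ((A + (w : ℤ) : ℤ) : ℝ))) - θ * Gd r p A ξ w))
          / (4 * (q:ℂ))) := by
    rw [show 2 * θ * ((Spec.sg (m + 1) (m - 1 - i) (z / r) : ℂ)
        * Spec.dB (m + 1) (leaf r p A) (ξ * r) (m - 1 - i) a0)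
        = θ * (Spec.sg (m + 1) (m - 1 - i) (z / r) : ℂ)
          * (2 * Spec.dB (m + 1) (leaf r p A) (ξ * r) (m - 1 - i) a0) by ring, hd,
      sum_sub_distrib, sum_sub_distrib, ← mul_sum, ← mul_sum]
    ring
  rw [e1, norm_mul, norm_sg, one_mul, norm_div]
  have hpt : ∀ w : ℕ, ‖(p (A + (w : ℤ)) : ℂ) * Spec.e (-(ξ * ((A + (w : ℤ) : ℤ) : ℝ)))
      - θ * Gd r p A ξ w‖ ≤ p (A + (w : ℤ)) * (2 * Real.pi * (|ξ| * r)) := by
    intro w
    have h1 : (p (A + (w : ℤ)) : ℂ) * Spec.e (-(ξ * ((A + (w : ℤ) : ℤ) : ℝ))) - θ * Gd r p A ξ w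
        = (p (A + (w : ℤ)) : ℂ) * (Spec.e (-(ξ * ((A + (w : ℤ) : ℤ) : ℝ)))
          - Spec.e (-(ξ * A) + -(ξ * r * ((w / r : ℕ) : ℝ)))) := by
      unfold Gd
      have h2 : Spec.e (-(ξ * A) + -(ξ * r * ((w / r : ℕ) : ℝ)))
          = θ * Spec.e (-(ξ * r * ((w / r : ℕ) : ℝ))) := by
        rw [hθ]
        unfold Spec.e
        rw [← Complex.exp_add]
        congr 1; push_cast; ring
      rw [h2]; ring
    rw [h1, norm_mul, Complex.norm_real, Real.norm_eq_abs, abs_of_nonneg (hp _)]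
    refine mul_le_mul_of_nonneg_left ?_ (hp _)
    refine (norm_e_sub_e' _ _).trans ?_
    refine mul_le_mul_of_nonneg_left ?_ (by positivity)
    have h3 : -(ξ * ((A + (w : ℤ) : ℤ) : ℝ)) - (-(ξ * A) + -(ξ * r * ((w / r : ℕ) : ℝ)))
        = -(ξ * ((w : ℝ) - r * ((w / r : ℕ) : ℝ))) := by push_cast; ring
    rw [h3, abs_neg, abs_mul]
    refine mul_le_mul_of_nonneg_left ?_ (abs_nonneg _)
    have h4 := Nat.div_add_mod w r
    have h5 : w % r < r := Nat.mod_lt _ (by omega)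
    have h6 : (w:ℝ) = r * ((w / r : ℕ) : ℝ) + ((w % r : ℕ) : ℝ) := by
      exact_mod_cast h4.symm
    have h7 : ((w % r : ℕ) : ℝ) < r := by exact_mod_cast h5
    rw [abs_of_nonneg]
    · linarith
    · have : (0:ℝ) ≤ ((w % r : ℕ) : ℝ) := by positivity
      linarith
  have hq0 : (0:ℝ) < q := by exact_mod_cast hq
  have hden : ‖(4 * (q:ℂ))‖ = 4 * q := by
    rw [norm_mul, Complex.norm_natCast, Complex.norm_ofNat]
  rw [hden, div_le_iff₀ (by positivity)]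
  refine (norm_sub_le _ _).trans ?_
  refine (add_le_add ((norm_sum_le _ _).trans (sum_le_sum fun w _ => hpt w))
    ((norm_sum_le _ _).trans (sum_le_sum fun w _ => hpt w))).trans ?_
  rw [sum_Ico_consecutive _ (by omega) (by omega), ← sum_mul, sum_shift p A]
  calc _ ≤ (lam * (4 * q : ℕ)) * (2 * Real.pi * (|ξ| * r)) := by
        refine mul_le_mul_of_nonneg_right hlam (by positivity)
    _ = lam * (2 * Real.pi * (|ξ| * r)) * (4 * q) := by push_cast; ring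

end Vale.Agent.P091.H750
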