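import Vale.Agent.P091.H750.Main0
import Vale.Agent.P091.H750.NodeRel
import Vale.Agent.P091.H750.GridRow

/-!
# P091, row GRIDROW: `Spec.HEAVY → GRIDROW`  (helper750)
-/

set_option autoImplicit false

open Finset

noncomputable section

namespace Vale.Agent.P091.H750

open Vale.Agent.P091

theorem div_block {r i t : ℕ} (ht : t < r) : (r * i + t) / r = i := by
  rw [Nat.mul_add_div (by omega), Nat.div_eq_of_lt ht, add_zero]

open Classical in
/-- the leaves whose block lies in `V` -/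
def leaves (r n : ℕ) (A : ℤ) (V : Finset ℤ) : Finset ℕ :=
  (range (2 ^ n)).filter fun i => ∀ t < r, A + ((r * i + t : ℕ) : ℤ) ∈ V

theorem card_leaves (r n : ℕ) (A : ℤ) (V : Finset ℤ) : (leaves r n A V).card * r ≤ V.card := by
  classical
  have h : (leaves r n A V ×ˢ range r).card = (leaves r n A V).card * r := by
    rw [card_product, card_range]
  rw [← h]
  refine card_le_card_of_injOn (fun q => A + ((r * q.1 + q.2 : ℕ) : ℤ)) ?_ ?_
  · intro q hq
    rw [mem_coe, mem_product] at hq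
    obtain ⟨h1, h2⟩ := hq
    unfold leaves at h1
    rw [mem_filter] at h1
    exact h1.2 q.2 (mem_range.1 h2)
  · intro q hq q' hq' he
    rw [mem_coe, mem_product] at hq hq'
    have h1 : r * q.1 + q.2 = r * q'.1 + q'.2 := by
      simp only at he
      omega
    have h2 := mem_range.1 hq.2
    have h3 := mem_range.1 hq'.2
    have h4 : q.1 = q'.1 := by rw [← div_block h2 (i := q.1), h1, div_block h3]
    have h5 : q.2 = q'.2 := by rw [h4] at h1; omega
    exact Prod.ext h4 h5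

theorem sum_reflect {b m : ℕ} (hb : b ≤ m) (f : ℕ → ℂ) :
    ∑ i ∈ range b, f (m - 1 - i) = ∑ j ∈ Ico (m - b) m, f j := by
  refine sum_nbij' (fun i => m - 1 - i) (fun j => m - 1 - j) ?_ ?_ ?_ ?_ ?_
  · intro i hi; rw [mem_range] at hi; rw [mem_Ico]; omega
  · intro j hj; rw [mem_Ico] at hj; rw [mem_range]; omega
  · intro i hi; rw [mem_range] at hi; omega
  · intro j hj; rw [mem_Ico] at hj; omega
  · intro i _; rfl

open Classical in
/-- one top node -/
theorem node_bound (hH : Spec.HEAVY) (C0 : ℝ) (hC0 : 0 ≤ C0) : ∃ C : ℝ, 0 ≤ C ∧ ∀ (D : ℝ), 2 ≤ D →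
  ∀ (r m : ℕ) (a A : ℤ) (p : ℤ → ℝ), 1 ≤ r → ((r * 2 ^ (m + 1) : ℕ) : ℤ) ∣ A - a →
  (∀ y, 0 ≤ p y) → (∀ y, p y ≤ Real.exp D) →
  (∀ s : ℤ, ∑ y ∈ Ico s (s + (r * 2 ^ (m + 1) : ℕ)), p y ≤ 2 * (r * 2 ^ (m + 1) : ℕ)) →
  ∀ (U : Type) [Fintype U] (ξ : U → ℝ) (V : U → Finset ℤ) (u : ℤ → U) (b : ℤ → ℕ)
    (W : Finset ℤ),
    (∀ k, m * r * |ξ k| ≤ 1) →
    (∀ x ∈ W, b x ≤ m) →
    (∀ x ∈ W, 1 ≤ b x → ∀ s : ℤ, s ≤ x → x < s + (r * 2 ^ (b x + 1) : ℕ) →
      Ico s (s + (r * 2 ^ (b x + 1) : ℕ)) ⊆ V (u x)) →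
    (∑ k, ((V k).card : ℝ) ≤ Real.exp (C0 * D) * (r * 2 ^ (m + 1) : ℕ)) →
    (∀ x ∈ W, ∀ (s : ℤ) (L : ℕ), r ≤ L → L ≤ r * 2 ^ (m + 1) → s ≤ x → x < s + L →
      ∑ y ∈ Ico s (s + L), p y ≤ Real.log D ^ 2 * L) →
    ∑ x ∈ W.filter (fun x => A ≤ x ∧ x < A + (r * 2 ^ (m + 1) : ℕ)), ‖∑ i ∈ range (b x),
        PET.T ((r : ℤ) * 2 ^ i) a (fun y => (p y : ℂ) * Spec.e (-(ξ (u x) * y))) x‖
      ≤ C * D * (r * 2 ^ (m + 1) : ℕ) := by
  obtain ⟨C, hC, hmain⟩ := main0 hH C0 hC0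
  refine ⟨2 * C + 32, by positivity, ?_⟩
  intro D hD r m a A p hr hA hp0 hp1 htop U _ ξ V u b W hξ hb hV hVs hal
  have hr0 : (0:ℝ) < r := by exact_mod_cast hr
  set Λ := r * 2 ^ (m + 1) with hΛ
  have hΛ0 : 0 < Λ := by positivity
  set B : Finset ℕ := (range Λ).filter fun z => A + (z : ℤ) ∈ W with hB
  have hBm : ∀ z, z ∈ B ↔ z < Λ ∧ A + (z : ℤ) ∈ W := fun z => by
    rw [hB, mem_filter, mem_range]
  have hlf : ∀ z ∈ B, z / r < 2 ^ (m + 1) := by
    intro z hz
    rw [Nat.div_lt_iff_lt_mul (by omega), mul_comm]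
    exact ((hBm z).1 hz).1
  have hmul : ∀ i, (B.filter fun z => z / r = i).card ≤ r := by
    intro i
    have : (B.filter fun z => z / r = i) ⊆ Ico (r * i) (r * i + r) := by
      intro z hz
      rw [mem_filter] at hz
      rw [mem_Ico, ← hz.2]
      have h1 := Nat.div_add_mod z r
      have h2 : z % r < r := Nat.mod_lt _ (by omega)
      constructor <;> omega
    refine (card_le_card this).trans ?_
    rw [Nat.card_Ico]; omega
  have hpl2 : Spec.av (m + 1) 0 0 (leaf r p A) ≤ 1 := by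
    rw [av_leaf hr, div_le_one (by positivity)]
    have := htop A
    simp only [Nat.sub_zero, zero_mul, Nat.cast_zero, add_zero, zero_add, one_mul]
    refine this.trans (le_of_eq ?_)
    rw [hΛ]; push_cast; ring
  have halive : ∀ z ∈ B, ∀ j ≤ m + 1,
      Spec.av (m + 1) j (Spec.anc (m + 1) j (z / r)) (leaf r p A) ≤ Real.log D ^ 2 := by
    intro z hz j hj
    obtain ⟨hz1, hz2⟩ := (hBm z).1 hz
    rw [av_leaf hr]
    set L := r * 2 ^ (m + 1 - j) with hL
    have hL0 : 0 < L := by positivity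
    have hanc : Spec.anc (m + 1) j (z / r) = z / L := by
      unfold Spec.anc; rw [Nat.div_div_eq_div_mul]
    rw [hanc]
    have h1 := Nat.div_add_mod z L
    have h2 : z % L < L := Nat.mod_lt _ hL0
    have h3 := hal _ hz2 (A + ((z / L * L : ℕ) : ℤ)) L (Nat.le_mul_of_pos_right _ (by positivity))
      (Nat.mul_le_mul_left _ (Nat.pow_le_pow_right (by norm_num) (by omega)))
      (by
        have : z / L * L ≤ z := Nat.div_mul_le_self _ _
        omega)
      (by
        have : z < z / L * L + L := by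
          have : z = z / L * L + z % L := by rw [mul_comm (z / L)]; exact h1.symm
          omega
        omega)
    have h4 : A + (((z / L + 1) * L : ℕ) : ℤ) = A + ((z / L * L : ℕ) : ℤ) + (L : ℤ) := by
      push_cast; ring
    rw [h4]
    have hL0' : (0:ℝ) < L := by exact_mod_cast hL0
    have h5 : (2:ℝ) * (r * 2 ^ (m + 1 - j)) = 2 * L := by rw [hL]; push_cast; ring
    rw [h5, div_le_iff₀ (by positivity)]
    have : 0 ≤ Real.log D ^ 2 * (L:ℝ) := by positivity
    nlinarith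
  have hVV : ∀ z ∈ B, ∀ j, m - b (A + z) ≤ j → j < m →
      Spec.nd (m + 1) j (Spec.anc (m + 1) j (z / r)) ⊆ leaves r (m + 1) A (V (u (A + z))) := by
    intro z hz j hj1 hj2 i hi
    obtain ⟨hz1, hz2⟩ := (hBm z).1 hz
    have hbz := hb _ hz2
    rw [mem_nd'] at hi
    unfold Spec.anc at hi
    have hzr := hlf z hz
    have hi2 : i < 2 ^ (m + 1) := by
      have h1 : i / 2 ^ (m + 1 - j) < 2 ^ j := by
        rw [hi]
        exact anc_lt (by omega) hzr
      rw [Nat.div_lt_iff_lt_mul (by positivity), ← pow_add] at h1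
      have : j + (m + 1 - j) = m + 1 := by omega
      rwa [this] at h1
    unfold leaves
    rw [mem_filter]
    refine ⟨mem_range.2 hi2, fun t ht => ?_⟩
    have hsV := hV _ hz2
    generalize b (A + (z:ℤ)) = bb at hj1 hbz hsV
    obtain ⟨L, hL⟩ : ∃ L, L = r * 2 ^ (bb + 1) := ⟨_, rfl⟩
    rw [← hL] at hsV
    have hL0 : 0 < L := by rw [hL]; positivity
    have h1 := Nat.div_add_mod z L
    have h2 : z % L < L := Nat.mod_lt _ hL0
    have hs := hsV (by omega) (A + ((z / L * L : ℕ) : ℤ))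
      (by
        have : z / L * L ≤ z := Nat.div_mul_le_self _ _
        omega)
      (by
        have : z < z / L * L + L := by
          have : z = z / L * L + z % L := by rw [mul_comm (z / L)]; exact h1.symm
          omega
        omega)
    refine hs ?_
    have h3 : (r * i + t) / L = z / L := by
      have e1 : (r * i + t) / L = i / 2 ^ (bb + 1) := by
        rw [hL, ← Nat.div_div_eq_div_mul, div_block ht]
      have e2 : z / L = (z / r) / 2 ^ (bb + 1) := by
        rw [hL, ← Nat.div_div_eq_div_mul]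
      have e3 : ∀ k : ℕ, k / 2 ^ (bb + 1)
          = (k / 2 ^ (m + 1 - j)) / 2 ^ (bb + 1 - (m + 1 - j)) := by
        intro k
        rw [Nat.div_div_eq_div_mul, ← pow_add]
        congr 2; omega
      rw [e1, e2, e3 i, hi, ← e3]
    have h4 := Nat.div_add_mod (r * i + t) L
    have h5 : (r * i + t) % L < L := Nat.mod_lt _ hL0
    rw [h3] at h4
    have h6 : r * i + t = z / L * L + (r * i + t) % L := by rw [mul_comm (z / L)]; exact h4.symm
    rw [mem_Ico]
    constructor <;> omega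
  have hVs' : ∑ k, ((leaves r (m + 1) A (V k)).card : ℝ) ≤ Real.exp (C0 * D) * 2 ^ (m + 1) := by
    have h1 : ∀ k, ((leaves r (m + 1) A (V k)).card : ℝ) * r ≤ (V k).card := fun k => by
      exact_mod_cast card_leaves r (m + 1) A (V k)
    have h2 : (∑ k, ((leaves r (m + 1) A (V k)).card : ℝ)) * r
        ≤ (Real.exp (C0 * D) * 2 ^ (m + 1)) * r := by
      rw [sum_mul]
      refine (sum_le_sum fun k _ => h1 k).trans (hVs.trans (le_of_eq ?_))
      rw [hΛ]; push_cast; ring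
    exact le_of_mul_le_mul_right h2 hr0
  have hM := hmain D hD m r hr (leaf r p A) (leaf_nonneg hp0 A)
    (leaf_le hr (Real.exp_pos _).le hp1 A) hpl2 B (fun z => z / r) hlf hmul halive U
    (fun k => ξ k * r) (fun z => u (A + z)) (fun z => m - b (A + z))
    (fun k => leaves r (m + 1) A (V k)) (fun z _ => Nat.sub_le _ _) hVV hVs'
  -- passage to relative coordinates
  have hre : ∑ x ∈ W.filter (fun x => A ≤ x ∧ x < A + (Λ : ℕ)), ‖∑ i ∈ range (b x),
        PET.T ((r : ℤ) * 2 ^ i) a (fun y => (p y : ℂ) * Spec.e (-(ξ (u x) * y))) x‖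
      = ∑ z ∈ B, ‖∑ i ∈ range (b (A + z)),
        PET.T ((r : ℤ) * 2 ^ i) a (fun y => (p y : ℂ) * Spec.e (-(ξ (u (A + z)) * y))) (A + z)‖ := by
    refine sum_nbij' (fun x => (x - A).toNat) (fun z => A + (z : ℤ)) ?_ ?_ ?_ ?_ ?_
    · intro x hx
      rw [mem_filter] at hx
      rw [hBm]
      have h1 : A + ((x - A).toNat : ℤ) = x := by omega
      exact ⟨by omega, by rw [h1]; exact hx.1⟩
    · intro z hz
      rw [hBm] at hz
      rw [mem_filter]
      exact ⟨hz.2, by omega, by omega⟩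
    · intro x hx
      rw [mem_filter] at hx
      show A + ((x - A).toNat : ℤ) = x
      omega
    · intro z hz
      show (A + (z : ℤ) - A).toNat = z
      omega
    · intro x hx
      rw [mem_filter] at hx
      have h1 : A + ((x - A).toNat : ℤ) = x := by omega
      rw [h1]
  rw [hre]
  have hlog := log_sq_le hD
  have hpt : ∀ z ∈ B, ‖∑ i ∈ range (b (A + z)),
        PET.T ((r : ℤ) * 2 ^ i) a (fun y => (p y : ℂ) * Spec.e (-(ξ (u (A + z)) * y))) (A + z)‖
      ≤ 2 * ‖∑ j ∈ Ico (m - b (A + z)) m, (Spec.sg (m + 1) j (z / r) : ℂ)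
        * Spec.dB (m + 1) (leaf r p A) (ξ (u (A + z)) * r) j (Spec.anc (m + 1) j (z / r))‖
        + 32 * D := by
    intro z hz
    obtain ⟨hz1, hz2⟩ := (hBm z).1 hz
    have hbz := hb _ hz2
    set bb := b (A + z) with hbb
    set η := ξ (u (A + z)) with hη
    set θ := Spec.e (-(η * A)) with hθ
    let f : ℕ → ℂ := fun j => (Spec.sg (m + 1) j (z / r) : ℂ)
        * Spec.dB (m + 1) (leaf r p A) (η * r) j (Spec.anc (m + 1) j (z / r))
    have h1 : ∀ i ∈ range bb, ‖PET.T ((r : ℤ) * 2 ^ i) a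
        (fun y => (p y : ℂ) * Spec.e (-(η * y))) (A + z) - 2 * θ * f (m - 1 - i)‖
        ≤ Real.log D ^ 2 * (2 * Real.pi * (|η| * r)) := by
      intro i hi
      rw [mem_range] at hi
      refine T_est hr (by omega) hA hp0 η ?_
      set L := 4 * (r * 2 ^ i) with hL
      have hL0 : 0 < L := by positivity
      have h1 := Nat.div_add_mod z L
      have h2 : z % L < L := Nat.mod_lt _ hL0
      have h3 := hal _ hz2 (A + ((z / L * L : ℕ) : ℤ)) L
        (by
          rw [hL]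
          have : r * 1 ≤ r * 2 ^ i := Nat.mul_le_mul_left _ (Nat.one_le_two_pow)
          omega)
        (by
          rw [hL]
          have h4 : 4 * (r * 2 ^ i) = r * 2 ^ (i + 2) := by rw [pow_add]; ring
          rw [h4]
          exact Nat.mul_le_mul_left _ (Nat.pow_le_pow_right (by norm_num) (by omega)))
        (by
          have : z / L * L ≤ z := Nat.div_mul_le_self _ _
          omega)
        (by
          have : z < z / L * L + L := by
            have : z = z / L * L + z % L := by rw [mul_comm (z / L)]; exact h1.symm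
            omega
          omega)
      have h4 : A + ((z / L * L + L : ℕ) : ℤ) = A + ((z / L * L : ℕ) : ℤ) + (L : ℤ) := by
        push_cast; ring
      rw [h4]
      exact h3
    have h2 : ∑ i ∈ range bb, PET.T ((r : ℤ) * 2 ^ i) a
        (fun y => (p y : ℂ) * Spec.e (-(η * y))) (A + z)
        = 2 * θ * (∑ j ∈ Ico (m - bb) m, f j) + ∑ i ∈ range bb, (PET.T ((r : ℤ) * 2 ^ i) a
          (fun y => (p y : ℂ) * Spec.e (-(η * y))) (A + z) - 2 * θ * f (m - 1 - i)) := by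
      rw [sum_sub_distrib, ← mul_sum, sum_reflect hbz]; ring
    rw [h2]
    refine (norm_add_le _ _).trans ?_
    rw [norm_mul, norm_mul, norm_e', Complex.norm_ofNat, mul_one]
    gcongr
    refine (norm_sum_le _ _).trans ((sum_le_sum h1).trans ?_)
    rw [sum_const, card_range, nsmul_eq_mul]
    have h3 : (bb:ℝ) ≤ m := by exact_mod_cast hbz
    have h4 := hξ (u (A + z))
    have h5 : (bb:ℝ) * (|η| * r) ≤ 1 := by
      calc (bb:ℝ) * (|η| * r) ≤ m * (|η| * r) := by gcongr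
        _ = m * r * |η| := by ring
        _ ≤ 1 := h4
    have h6 : (0:ℝ) ≤ (bb:ℝ) * (|η| * r) := by positivity
    calc (bb:ℝ) * (Real.log D ^ 2 * (2 * Real.pi * (|η| * r)))
        = Real.log D ^ 2 * (2 * Real.pi * ((bb:ℝ) * (|η| * r))) := by ring
      _ ≤ (4 * D) * (2 * 4 * 1) := by
          have hpi := Real.pi_le_four
          gcongr
      _ = 32 * D := by ring
  refine (sum_le_sum hpt).trans ?_
  rw [sum_add_distrib, ← mul_sum, sum_const, nsmul_eq_mul]
  have hcard := card_le_of_mult hlf hmul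
  have hΛ' : (Λ : ℝ) = r * 2 ^ (m + 1) := by rw [hΛ]; push_cast; ring
  rw [hΛ']
  have h7 : (B.card : ℝ) * (32 * D) ≤ (r * 2 ^ (m + 1)) * (32 * D) :=
    mul_le_mul_of_nonneg_right hcard (by linarith)
  have h8 : (2:ℝ) * ∑ z ∈ B, ‖∑ j ∈ Ico (m - b (A + z)) m, (Spec.sg (m + 1) j (z / r) : ℂ)
        * Spec.dB (m + 1) (leaf r p A) (ξ (u (A + z)) * r) j (Spec.anc (m + 1) j (z / r))‖
      ≤ 2 * (C * D * (r * 2 ^ (m + 1))) := mul_le_mul_of_nonneg_left hM (by norm_num)
  calc _ ≤ 2 * (C * D * (r * 2 ^ (m + 1))) + (r * 2 ^ (m + 1)) * (32 * D) := add_le_add h8 h7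
    _ = _ := by ring

theorem gridrow (hH : Spec.HEAVY) : GRIDROW := by
  classical
  intro C0 hC0
  obtain ⟨C, hC, hnode⟩ := node_bound hH C0 hC0
  refine ⟨2 * C, by positivity, ?_⟩
  intro D hD r m n a p hr hn hp0 hp1 htop U _ ξ V u b W hW hξ hb hV hVs hal
  set Λ := r * 2 ^ (m + 1) with hΛ
  have hΛ0 : 0 < Λ := by positivity
  have hΛz : (0:ℤ) < (Λ : ℤ) := by exact_mod_cast hΛ0
  set q0 : ℤ := (0 - a) / (Λ : ℤ) with hq0
  set A0 : ℤ := a + (Λ : ℤ) * q0 with hA0
  set h : ℤ → ℝ := fun x => ‖∑ i ∈ range (b x),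
        PET.T ((r : ℤ) * 2 ^ i) a (fun y => (p y : ℂ) * Spec.e (-(ξ (u x) * y))) x‖ with hh
  have hA0le : A0 ≤ 0 := by
    have := Int.mul_ediv_self_le (x := 0 - a) (k := (Λ : ℤ)) hΛz.ne'
    rw [hA0]; linarith
  have hA0lt : 0 < A0 + Λ := by
    have := Int.lt_mul_ediv_self_add (x := 0 - a) (k := (Λ : ℤ)) hΛz
    rw [hA0]; linarith
  have h1 := hnode D hD r m a A0 p hr ⟨q0, by rw [hA0]; ring⟩ hp0 hp1 htop U ξ V u b W hξ hb hV
    hVs hal
  have h2 := hnode D hD r m a (A0 + Λ) p hr ⟨q0 + 1, by rw [hA0]; ring⟩ hp0 hp1 htop U ξ V u b W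
    hξ hb hV hVs hal
  have hsub : W ⊆ W.filter (fun x => A0 ≤ x ∧ x < A0 + (Λ : ℕ))
      ∪ W.filter (fun x => A0 + Λ ≤ x ∧ x < A0 + Λ + (Λ : ℕ)) := by
    intro x hx
    have hx' := hW hx
    rw [mem_Ico] at hx'
    rw [mem_union, mem_filter, mem_filter]
    have hn' : (n : ℤ) ≤ Λ := by exact_mod_cast hn
    by_cases c : x < A0 + Λ
    · left; exact ⟨hx, by omega, c⟩
    · right; exact ⟨hx, by omega, by omega⟩
  calc ∑ x ∈ W, h x ≤ ∑ x ∈ W.filter (fun x => A0 ≤ x ∧ x < A0 + (Λ : ℕ))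
      ∪ W.filter (fun x => A0 + Λ ≤ x ∧ x < A0 + Λ + (Λ : ℕ)), h x :=
        sum_le_sum_of_subset_of_nonneg hsub fun x _ _ => norm_nonneg _
    _ ≤ ∑ x ∈ W.filter (fun x => A0 ≤ x ∧ x < A0 + (Λ : ℕ)), h x
      + ∑ x ∈ W.filter (fun x => A0 + Λ ≤ x ∧ x < A0 + Λ + (Λ : ℕ)), h x := by
        have := sum_union_inter (s₁ := W.filter (fun x => A0 ≤ x ∧ x < A0 + (Λ : ℕ)))
          (s₂ := W.filter (fun x => A0 + Λ ≤ x ∧ x < A0 + Λ + (Λ : ℕ))) (f := h)
        have h3 : 0 ≤ ∑ x ∈ W.filter (fun x => A0 ≤ x ∧ x < A0 + (Λ : ℕ))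
          ∩ W.filter (fun x => A0 + Λ ≤ x ∧ x < A0 + Λ + (Λ : ℕ)), h x :=
          sum_nonneg fun x _ => norm_nonneg _
        linarith
    _ ≤ C * D * (Λ : ℕ) + C * D * (Λ : ℕ) := add_le_add h1 h2
    _ = 2 * C * D * (Λ : ℕ) := by ring

end Vale.Agent.P091.H750
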