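import Vale.Agent.P091.H750.Tree0

/-!
# P091, row GRIDROW: the activated part, from `Spec.HEAVY`  (helper750)
-/

set_option autoImplicit false

open Finset

noncomputable section

namespace Vale.Agent.P091.H750

open Vale.Agent.P091

section
variable {U : Type} (n m r : ℕ) (lf act : ℕ → ℕ) (uu : ℕ → U)

/-- letter, activation level, activation node -/
def key (z : ℕ) : U × ℕ × ℕ := (uu z, act z, Spec.anc n (act z) (lf z))

end

open Classical in
/-- the activated part -/
theorem heavy_piece {C1 C0 : ℝ} (D : ℝ) (m : ℕ)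
    (hH : ∀ (ι : Type) [Fintype ι] (d : Spec.HData C0 D (m + 1) ι), ‖d.gain‖ ≤ C1 * D)
    {r : ℕ} (hr : 1 ≤ r) (pl : ℕ → ℝ) (p0 : ∀ i, 0 ≤ pl i) (p1 : ∀ i, pl i ≤ Real.exp D)
    (p2 : Spec.av (m + 1) 0 0 pl ≤ 1) (B : Finset ℕ) (lf : ℕ → ℕ)
    (hlf : ∀ z ∈ B, lf z < 2 ^ (m + 1)) (hmul : ∀ i, (B.filter fun z => lf z = i).card ≤ r)
    (alive : ∀ z ∈ B, ∀ j ≤ m + 1,
      Spec.av (m + 1) j (Spec.anc (m + 1) j (lf z)) pl ≤ Real.log D ^ 2)
    {U : Type} (ξ : U → ℝ) (uu : ℕ → U) (act : ℕ → ℕ)
    (hmass : ∀ j < m, ∀ v : U × ℕ,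
      (∃ z ∈ B, (uu z, Spec.anc (m + 1) j (lf z)) = v ∧ act z = j) →
      Real.exp (-(C0 * D)) * (r * 2 ^ (m + 1 - j)) ≤
        ((B.filter fun z => (uu z, Spec.anc (m + 1) j (lf z)) = v ∧ act z = j).card : ℝ)) :
    ∑ z ∈ B.filter (fun z => act z < m), ‖∑ j ∈ Ico (act z + 3) m,
        (Spec.sg (m + 1) j (lf z) : ℂ)
          * Spec.dB (m + 1) pl (ξ (uu z)) j (Spec.anc (m + 1) j (lf z))‖
      ≤ C1 * D * (r * 2 ^ (m + 1)) := by
  set n := m + 1 with hn
  have hr0 : (0:ℝ) < r := by exact_mod_cast hr
  obtain ⟨Ba, hBa⟩ : ∃ Ba : Finset ℕ, Ba = B.filter (fun z => act z < m) := ⟨_, rfl⟩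
  rw [← hBa]
  set ky := key n lf act uu with hky
  set K := Ba.image ky with hK
  let S : U → ℕ → ℕ → ℂ := fun u j0 i => ∑ j ∈ Ico (j0 + 3) m,
    (Spec.sg n j i : ℂ) * Spec.dB n pl (ξ u) j (Spec.anc n j i)
  let g : ℕ → ℂ := fun z => ph (S (uu z) (act z) (lf z))
  have hKmem : ∀ k : ↥K, ∃ z ∈ Ba, ky z = k.1 := fun k => by
    obtain ⟨z, hz, hz'⟩ := mem_image.1 k.2
    exact ⟨z, hz, hz'⟩
  have hsub : ∀ z ∈ Ba, z ∈ B ∧ act z < m := fun z hz => by
    rw [hBa, mem_filter] at hz; exact hz
  let d : Spec.HData C0 D n ↥K :=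
    { p := pl
      js := fun k => k.1.2.1
      ac := fun k => k.1.2.2
      ξ := fun k => ξ k.1.1
      a := fun k i => ((Ba.filter fun z => ky z = k.1 ∧ lf z = i).card : ℝ) / r
      A := fun k i => (∑ z ∈ Ba.filter (fun z => ky z = k.1 ∧ lf z = i), g z) / r
      p_nonneg := p0
      p_le := p1
      p_avg := p2
      js_le := by
        intro k
        obtain ⟨z, hz, hk⟩ := hKmem k
        have h1 : k.1.2.1 = act z := by rw [← hk]; rfl
        rw [h1]
        have := (hsub z hz).2
        omega
      ac_lt := by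
        intro k
        obtain ⟨z, hz, hk⟩ := hKmem k
        have h1 : k.1.2.1 = act z := by rw [← hk]; rfl
        have h2 : k.1.2.2 = Spec.anc n (act z) (lf z) := by rw [← hk]; rfl
        rw [h1, h2]
        have h3 := (hsub z hz).2
        exact anc_lt (by omega) (hlf z (hsub z hz).1)
      a_nonneg := fun k i => by positivity
      a_sum := by
        intro i
        rw [← sum_div, div_le_one hr0]
        have h1 : ∑ k : ↥K, ((Ba.filter fun z => ky z = k.1 ∧ lf z = i).card : ℝ)
            = ∑ k ∈ K, ((Ba.filter fun z => ky z = k ∧ lf z = i).card : ℝ) :=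
          Finset.sum_coe_sort K fun k => ((Ba.filter fun z => ky z = k ∧ lf z = i).card : ℝ)
        rw [h1, ← Nat.cast_sum, Nat.cast_le]
        have h2 : ∑ k ∈ K, (Ba.filter fun z => ky z = k ∧ lf z = i).card
            = (Ba.filter fun z => lf z = i).card := by
          rw [card_eq_sum_card_fiberwise (f := ky) (t := K)]
          · refine sum_congr rfl fun k _ => ?_
            rw [filter_filter]
            congr 1
            ext z; simp only [mem_filter]; tauto
          · intro z hz
            exact mem_image_of_mem _ (mem_of_mem_filter z hz)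
        rw [h2]
        refine (card_le_card ?_).trans (hmul i)
        intro z hz
        rw [mem_filter] at hz ⊢
        exact ⟨(hsub z hz.1).1, hz.2⟩
      a_supp := by
        intro k i h
        have h1 : (Ba.filter fun z => ky z = k.1 ∧ lf z = i).Nonempty := by
          by_contra hne
          rw [not_nonempty_iff_eq_empty] at hne
          rw [hne] at h
          simp at h
        obtain ⟨z, hz⟩ := h1
        rw [mem_filter] at hz
        rw [mem_nd', ← hz.2.2, ← hz.2.1]
        rfl
      a_mass := by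
        intro k
        obtain ⟨z0, hz0, hk⟩ := hKmem k
        have e1 : k.1.2.1 = act z0 := by rw [← hk]; rfl
        have e2 : k.1.2.2 = Spec.anc n (act z0) (lf z0) := by rw [← hk]; rfl
        have e3 : k.1.1 = uu z0 := by rw [← hk]; rfl
        have h3 := (hsub z0 hz0).2
        have h4 := hmass (act z0) h3 (uu z0, Spec.anc n (act z0) (lf z0))
          ⟨z0, (hsub z0 hz0).1, rfl, rfl⟩
        unfold Spec.av
        rw [le_div_iff₀ (by positivity), ← sum_div, le_div_iff₀ hr0]
        rw [← Nat.cast_sum]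
        have h5 : ∑ i ∈ Spec.nd n k.1.2.1 k.1.2.2, (Ba.filter fun z => ky z = k.1 ∧ lf z = i).card
            = (Ba.filter fun z => ky z = k.1).card := by
          rw [card_eq_sum_card_fiberwise (f := lf) (t := Spec.nd n k.1.2.1 k.1.2.2)
            (s := Ba.filter fun z => ky z = k.1)]
          · refine sum_congr rfl fun i _ => ?_
            rw [filter_filter]
          · intro z hz
            rw [mem_coe, mem_filter] at hz
            rw [mem_coe, mem_nd', ← hz.2]
            rfl
        rw [h5]
        have h6 : (B.filter fun z => (uu z, Spec.anc n (act z0) (lf z))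
            = (uu z0, Spec.anc n (act z0) (lf z0)) ∧ act z = act z0)
            ⊆ Ba.filter fun z => ky z = k.1 := by
          intro z hz
          rw [mem_filter] at hz ⊢
          obtain ⟨hzB, hv, ha⟩ := hz
          refine ⟨?_, ?_⟩
          · rw [hBa, mem_filter]; exact ⟨hzB, by omega⟩
          · rw [← hk, hky]
            unfold key
            rw [Prod.mk.injEq] at hv
            rw [ha, hv.1, hv.2]
        have h7 : ((B.filter fun z => (uu z, Spec.anc n (act z0) (lf z))
            = (uu z0, Spec.anc n (act z0) (lf z0)) ∧ act z = act z0).card : ℝ)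
            ≤ ((Ba.filter fun z => ky z = k.1).card : ℝ) := by
          exact_mod_cast card_le_card h6
        have h8 := h4.trans h7
        rw [e1]
        linarith [h8]
      A_le := by
        intro k i
        rw [norm_div, Complex.norm_natCast]
        refine div_le_div_of_nonneg_right ?_ hr0.le
        refine (norm_sum_le _ _).trans ?_
        refine (sum_le_sum fun z _ => norm_ph _).trans ?_
        rw [sum_const, nsmul_eq_mul, mul_one]
      alive := by
        intro k i h j hj
        have h1 : (Ba.filter fun z => ky z = k.1 ∧ lf z = i).Nonempty := by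
          by_contra hne
          rw [not_nonempty_iff_eq_empty] at hne
          rw [hne] at h
          simp at h
        obtain ⟨z, hz⟩ := h1
        rw [mem_filter] at hz
        rw [← hz.2.2]
        exact alive z (hsub z hz.1).1 j hj }
  have hg : d.gain = ((∑ z ∈ Ba, ‖S (uu z) (act z) (lf z)‖ : ℝ) : ℂ) / (r * 2 ^ n) := by
    unfold Spec.HData.gain
    have h1 : ∀ k : ↥K, ∑ j ∈ Ico (d.js k + 3) (n - 1),
        (∑ i ∈ range (2 ^ n), d.A k i * Spec.sg n j i * Spec.dB n d.p (d.ξ k) j (Spec.anc n j i))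
          / 2 ^ n
        = (∑ z ∈ Ba.filter (fun z => ky z = k.1), (‖S (uu z) (act z) (lf z)‖ : ℂ))
          / (r * 2 ^ n) := by
      intro k
      rw [← sum_div, sum_comm]
      have h2 : ∀ i ∈ range (2 ^ n), ∑ j ∈ Ico (d.js k + 3) (n - 1),
          d.A k i * Spec.sg n j i * Spec.dB n d.p (d.ξ k) j (Spec.anc n j i)
          = (∑ z ∈ Ba.filter (fun z => ky z = k.1 ∧ lf z = i),
              (‖S (uu z) (act z) (lf z)‖ : ℂ)) / r := by
        intro i _
        have h3 : ∑ j ∈ Ico (d.js k + 3) (n - 1),
          d.A k i * Spec.sg n j i * Spec.dB n d.p (d.ξ k) j (Spec.anc n j i)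
            = d.A k i * S k.1.1 k.1.2.1 i := by
          simp only [S]
          rw [mul_sum]
          refine sum_congr rfl fun j _ => ?_
          rw [mul_assoc]
        rw [h3]
        change (∑ z ∈ Ba.filter (fun z => ky z = k.1 ∧ lf z = i), g z) / (r:ℂ)
          * S k.1.1 k.1.2.1 i = _
        rw [div_mul_eq_mul_div, sum_mul]
        congr 1
        refine sum_congr rfl fun z hz => ?_
        rw [mem_filter] at hz
        have e1 : k.1.2.1 = act z := by rw [← hz.2.1]; rfl
        have e3 : k.1.1 = uu z := by rw [← hz.2.1]; rfl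
        rw [e1, e3, ← hz.2.2]
        exact ph_mul _
      rw [sum_congr rfl h2, ← sum_div, div_div]
      congr 1
      rw [← sum_fiberwise_of_maps_to (s := Ba.filter fun z => ky z = k.1) (t := range (2 ^ n))
        (g := lf)]
      · refine sum_congr rfl fun i _ => ?_
        rw [filter_filter]
      · intro z hz
        rw [mem_filter] at hz
        exact mem_range.2 (hlf z (hsub z hz.1).1)
    rw [sum_congr rfl fun k _ => h1 k, ← sum_div]
    congr 1
    have h2 : ∑ k : ↥K, ∑ z ∈ Ba.filter (fun z => ky z = k.1), (‖S (uu z) (act z) (lf z)‖ : ℂ)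
        = ∑ k ∈ K, ∑ z ∈ Ba.filter (fun z => ky z = k), (‖S (uu z) (act z) (lf z)‖ : ℂ) :=
      Finset.sum_coe_sort K fun k =>
        ∑ z ∈ Ba.filter (fun z => ky z = k), (‖S (uu z) (act z) (lf z)‖ : ℂ)
    rw [h2, sum_fiberwise_of_maps_to (fun z hz => mem_image_of_mem _ hz)]
    push_cast
    rfl
  have hfin := hH ↥K d
  rw [hg, norm_div, Complex.norm_real, norm_mul, Complex.norm_natCast, norm_pow,
    Complex.norm_ofNat, Real.norm_eq_abs, abs_of_nonneg (sum_nonneg fun z _ => norm_nonneg _),
    div_le_iff₀ (by positivity)] at hfin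
  exact hfin

end Vale.Agent.P091.H750
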