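import Mathlib

/-!
# P091, row GRID: the waiting / activation process on the levels of one grid  (helper750)

`jb z` = birth level, `N j z` = the pair (letter, node of level `j`) of `z`.  At every level `j < m`
a group `v` of waiting points is activated as a whole as soon as it has at least `th j` elements.
`act z` = the level at which `z` is activated (`m` if it never is).
-/

set_option autoImplicit false

open Finset

namespace Vale.Agent.P091.H750

open Classical in
theorem exists_act {β : Type*} (B : Finset ℕ) (N : ℕ → ℕ → β) (th : ℕ → ℝ) (hth : ∀ j, 0 ≤ th j) :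
    ∀ (m : ℕ) (jb : ℕ → ℕ), (∀ z ∈ B, jb z ≤ m) → ∃ act : ℕ → ℕ,
      (∀ z ∈ B, jb z ≤ act z ∧ act z ≤ m) ∧
      (∀ j < m, ∀ v, ((B.filter fun z => N j z = v ∧ jb z ≤ j ∧ j < act z).card : ℝ) ≤ th j) ∧
      (∀ j < m, ∀ v, (∃ z ∈ B, N j z = v ∧ act z = j) →
        th j ≤ ((B.filter fun z => N j z = v ∧ act z = j).card : ℝ)) := by
  intro m
  induction m with
  | zero =>
    intro jb hjb
    exact ⟨jb, fun z hz => ⟨le_rfl, hjb z hz⟩, fun j hj => absurd hj (Nat.not_lt_zero _),
      fun j hj => absurd hj (Nat.not_lt_zero _)⟩
  | succ m ih =>
    intro jb hjb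
    obtain ⟨act', h1, h2, h3⟩ := ih (fun z => min (jb z) m) (fun z _ => min_le_right _ _)
    -- the waiting set at level m
    set Wm : Finset ℕ := B.filter fun z => act' z = m ∧ jb z ≤ m with hWm
    let big : β → Prop := fun v => th m ≤ ((Wm.filter fun y => N m y = v).card : ℝ)
    let act : ℕ → ℕ := fun z => if act' z < m then act' z else
      if jb z ≤ m ∧ big (N m z) then m else m + 1
    refine ⟨act, ?_, ?_, ?_⟩
    · intro z hz
      have := h1 z hz
      simp only [act]
      have hj := hjb z hz
      split_ifs with c1 c2
      · refine ⟨?_, by omega⟩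
        rcases le_total (jb z) m with h | h
        · rw [min_eq_left h] at this; exact this.1
        · rw [min_eq_right h] at this; omega
      · exact ⟨c2.1, by omega⟩
      · exact ⟨hj, le_rfl⟩
    · intro j hj v
      rcases Nat.lt_succ_iff_lt_or_eq.1 hj with hj | rfl
      · refine le_trans ?_ (h2 j hj v)
        rw [Nat.cast_le]
        refine card_le_card fun z hz => ?_
        rw [mem_filter] at hz ⊢
        obtain ⟨hz, hv, hb, ha⟩ := hz
        refine ⟨hz, hv, (min_le_left _ _).trans hb, ?_⟩
        have := h1 z hz
        simp only [act] at ha
        split_ifs at ha with c1 c2 <;> omega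
      · by_cases hbig : big v
        · have : (B.filter fun z => N j z = v ∧ jb z ≤ j ∧ j < act z) = ∅ := by
            refine filter_eq_empty_iff.2 fun z hz => ?_
            rintro ⟨hv, hb, ha⟩
            simp only [act] at ha
            have hz' := h1 z hz
            split_ifs at ha with c1 c2
            · omega
            · omega
            · exact c2 ⟨hb, by rw [hv]; exact hbig⟩
          rw [this, card_empty, Nat.cast_zero]
          exact hth j
        · refine le_trans ?_ (not_le.1 hbig).le
          rw [Nat.cast_le]
          refine card_le_card fun z hz => ?_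
          rw [mem_filter] at hz ⊢
          obtain ⟨hz, hv, hb, ha⟩ := hz
          refine ⟨?_, hv⟩
          rw [hWm, mem_filter]
          refine ⟨hz, ?_, hb⟩
          have hz' := h1 z hz
          simp only [act] at ha
          split_ifs at ha with c1 c2 <;> omega
    · intro j hj v hex
      rcases Nat.lt_succ_iff_lt_or_eq.1 hj with hj | rfl
      · obtain ⟨z, hz, hv, ha⟩ := hex
        have key : ∀ z, act z = j → act' z = j := by
          intro z ha
          simp only [act] at ha
          split_ifs at ha with c1 c2 <;> omega
        have key' : ∀ z, act' z = j → act z = j := by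
          intro z ha
          simp only [act]
          rw [if_pos (by omega)]; exact ha
        refine (h3 j hj v ⟨z, hz, hv, key z ha⟩).trans ?_
        rw [Nat.cast_le]
        refine card_le_card fun y hy => ?_
        rw [mem_filter] at hy ⊢
        exact ⟨hy.1, hy.2.1, key' y hy.2.2⟩
      · obtain ⟨z, hz, hv, ha⟩ := hex
        have hz' := h1 z hz
        have hbz : jb z ≤ j ∧ big (N j z) := by
          simp only [act] at ha
          split_ifs at ha with c1 c2
          · omega
          · exact c2
          · omega
        have hbig : big v := by rw [← hv]; exact hbz.2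
        refine le_trans hbig ?_
        rw [Nat.cast_le]
        refine card_le_card fun y hy => ?_
        rw [mem_filter, hWm, mem_filter] at hy
        rw [mem_filter]
        obtain ⟨⟨hyB, hya, hyb⟩, hyv⟩ := hy
        refine ⟨hyB, hyv, ?_⟩
        simp only [act]
        rw [if_neg (by omega), if_pos ⟨hyb, by rw [hyv]; exact hbig⟩]

end Vale.Agent.P091.H750
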