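import Vale.Agent.P091.H750.Tree0
import Vale.Agent.P091.H733.Wait

/-!
# P091, row GRIDROW: the waiting part, from 733's WAIT LEMMA  (helper750)
-/

set_option autoImplicit false

open Finset

noncomputable section

namespace Vale.Agent.P091.H750

open Vale.Agent.P091

/-- Cauchy–Schwarz over levels and nodes -/
theorem cs_levels (m : ℕ) (Q : ℕ → Finset ℕ) (X Y : ℕ → ℕ → ℝ) :
    ∑ j ∈ range m, ∑ a ∈ Q j, (1 / 2 ^ j) * (|X j a| * |Y j a|)
      ≤ √(∑ j ∈ range m, ∑ a ∈ Q j, (1 / 2 ^ j) * |X j a| ^ 2)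
        * √(∑ j ∈ range m, ∑ a ∈ Q j, (1 / 2 ^ j) * |Y j a| ^ 2) := by
  have h1 : ∀ j, ∑ a ∈ Q j, (1 / 2 ^ j) * (|X j a| * |Y j a|)
      ≤ √(∑ a ∈ Q j, (1 / 2 ^ j) * |X j a| ^ 2) * √(∑ a ∈ Q j, (1 / 2 ^ j) * |Y j a| ^ 2) := by
    intro j
    refine le_trans (le_of_eq ?_) (Real.sum_sqrt_mul_sqrt_le (Q j)
      (f := fun a => (1 / 2 ^ j) * |X j a| ^ 2) (g := fun a => (1 / 2 ^ j) * |Y j a| ^ 2)
      (fun a => by positivity) (fun a => by positivity))
    refine sum_congr rfl fun a _ => ?_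
    rw [← Real.sqrt_mul (by positivity)]
    rw [show (1 / 2 ^ j * |X j a| ^ 2) * (1 / 2 ^ j * |Y j a| ^ 2)
      = ((1 / 2 ^ j) * (|X j a| * |Y j a|)) ^ 2 by ring]
    rw [Real.sqrt_sq (by positivity)]
  refine (sum_le_sum fun j _ => h1 j).trans ?_
  exact Real.sum_sqrt_mul_sqrt_le (range m)
    (f := fun j => ∑ a ∈ Q j, (1 / 2 ^ j) * |X j a| ^ 2)
    (g := fun j => ∑ a ∈ Q j, (1 / 2 ^ j) * |Y j a| ^ 2)
    (fun j => sum_nonneg fun a _ => by positivity) (fun j => sum_nonneg fun a _ => by positivity)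

/-- total variation of the indicator of an interval of levels -/
theorem indicator_var (m lo hi : ℕ) (w : ℂ) (hw : ‖w‖ ≤ 1) :
    ∑ j ∈ range m, ‖(if lo ≤ j ∧ j < hi then w else 0) - (if lo ≤ j + 1 ∧ j + 1 < hi then w else 0)‖
      ≤ 2 := by
  have h1 : ∀ j, ‖(if lo ≤ j ∧ j < hi then w else 0) - (if lo ≤ j + 1 ∧ j + 1 < hi then w else 0)‖
      ≤ (if j + 1 = lo then (1:ℝ) else 0) + (if j + 1 = hi then 1 else 0) := by
    intro j
    split_ifs <;> first
      | omega
      | (simp only [sub_self, norm_zero, sub_zero, zero_sub, norm_neg]; linarith)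
  refine (sum_le_sum fun j _ => h1 j).trans ?_
  rw [sum_add_distrib]
  have h2 : ∀ c : ℕ, ∑ j ∈ range m, (if j + 1 = c then (1:ℝ) else 0) ≤ 1 := by
    intro c
    rw [← sum_filter, sum_const, nsmul_eq_mul, mul_one]
    have : ((range m).filter fun j => j + 1 = c).card ≤ 1 := by
      rw [card_le_one]
      intro a ha b hb
      rw [mem_filter] at ha hb
      omega
    exact_mod_cast this
  linarith [h2 lo, h2 hi]

open Classical in
theorem wait_letter (m : ℕ) {r : ℕ} (hr : 1 ≤ r) (pl : ℕ → ℝ) (ξ : ℝ) {M : ℝ} (hM : 0 ≤ M)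
    (B : Finset ℕ) (lf jb act : ℕ → ℕ) (hlf : ∀ z ∈ B, lf z < 2 ^ (m + 1))
    (hact : ∀ z ∈ B, act z ≤ m)
    (hdens : ∀ j < m, ∀ a, ((B.filter fun z => Spec.anc (m + 1) j (lf z) = a ∧ jb z ≤ j ∧
      j < act z).card : ℝ) ≤ M * (r * 2 ^ (m + 1 - j)))
    (V : Finset ℕ)
    (hV : ∀ z ∈ B, ∀ j, jb z ≤ j → j < m →
      Spec.nd (m + 1) j (Spec.anc (m + 1) j (lf z)) ⊆ V) :
    ∑ z ∈ B, ‖∑ j ∈ Ico (jb z) (act z), (Spec.sg (m + 1) j (lf z) : ℂ)
        * Spec.dB (m + 1) pl ξ j (Spec.anc (m + 1) j (lf z))‖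
      ≤ r * (√(∑ i ∈ V, pl i ^ 2) * √(12 * M * (B.card / r))) := by
  set n := m + 1 with hn
  have hr0 : (0:ℝ) < r := by exact_mod_cast hr
  set S : ℕ → ℂ := fun z => ∑ j ∈ Ico (jb z) (act z), (Spec.sg n j (lf z) : ℂ)
        * Spec.dB n pl ξ j (Spec.anc n j (lf z)) with hS
  set g : ℕ → ℂ := fun z => ph (S z) with hg
  have hg1 : ∀ z, ‖g z‖ ≤ 1 := fun z => norm_ph _
  set G : ℕ → ℕ → ℂ := fun j i =>
    (∑ z ∈ B.filter (fun z => lf z = i), if jb z ≤ j ∧ j < act z then g z else 0) / r with hG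
  set nu : ℕ → ℕ → ℝ := fun j i =>
    ((B.filter fun z => lf z = i ∧ jb z ≤ j ∧ j < act z).card : ℝ) / r with hnu
  -- the hypotheses of the waiting lemma
  have h1 : ∀ j i, ‖G j i‖ ≤ nu j i := by
    intro j i
    simp only [hG, hnu]
    rw [norm_div, Complex.norm_natCast]
    refine div_le_div_of_nonneg_right ?_ hr0.le
    rw [← sum_filter, filter_filter]
    refine (norm_sum_le _ _).trans ((sum_le_sum fun z _ => hg1 z).trans ?_)
    rw [sum_const, nsmul_eq_mul, mul_one]
  have h2 : ∀ j < n - 1, ∀ a < 2 ^ j, Spec.av n j a (nu j) ≤ M := by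
    intro j hj a _
    unfold Spec.av
    rw [div_le_iff₀ (by positivity), ← sum_div, div_le_iff₀ hr0, ← Nat.cast_sum]
    have h5 : ∑ i ∈ Spec.nd n j a, (B.filter fun z => lf z = i ∧ jb z ≤ j ∧ j < act z).card
        = (B.filter fun z => Spec.anc n j (lf z) = a ∧ jb z ≤ j ∧ j < act z).card := by
      rw [card_eq_sum_card_fiberwise (f := lf) (t := Spec.nd n j a)
        (s := B.filter fun z => Spec.anc n j (lf z) = a ∧ jb z ≤ j ∧ j < act z)]
      · refine sum_congr rfl fun i hi => ?_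
        rw [filter_filter]
        congr 1
        ext z
        simp only [mem_filter]
        rw [mem_nd'] at hi
        constructor
        · rintro ⟨hz, hz1, hz2⟩
          refine ⟨hz, ⟨?_, hz2⟩, hz1⟩
          unfold Spec.anc; rw [hz1, hi]
        · rintro ⟨hz, ⟨_, hz2⟩, hz1⟩
          exact ⟨hz, hz1, hz2⟩
      · intro z hz
        rw [mem_coe, mem_filter] at hz
        rw [mem_coe, mem_nd']
        exact hz.2.1
    rw [h5]
    have := hdens j (by omega) a
    linarith
  have h3 : ∀ j i, n - 1 ≤ j → G j i = 0 := by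
    intro j i hj
    simp only [hG]
    rw [sum_eq_zero, zero_div]
    intro z hz
    rw [mem_filter] at hz
    have := hact z hz.1
    rw [if_neg (by omega)]
  have h4 : ∑ i ∈ range (2 ^ n), ∑ j ∈ range (n - 1), ‖G j i - G (j + 1) i‖
      ≤ 2 * (B.card / r) := by
    have h5 : ∀ i, ∑ j ∈ range (n - 1), ‖G j i - G (j + 1) i‖
        ≤ 2 * ((B.filter fun z => lf z = i).card / r) := by
      intro i
      have h6 : ∀ j, ‖G j i - G (j + 1) i‖ ≤ (∑ z ∈ B.filter (fun z => lf z = i),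
          ‖(if jb z ≤ j ∧ j < act z then g z else 0)
            - (if jb z ≤ j + 1 ∧ j + 1 < act z then g z else 0)‖) / r := by
        intro j
        simp only [hG]
        rw [← sub_div, norm_div, Complex.norm_natCast, ← sum_sub_distrib]
        exact div_le_div_of_nonneg_right (norm_sum_le _ _) hr0.le
      refine (sum_le_sum fun j _ => h6 j).trans ?_
      rw [← sum_div, sum_comm, mul_div_assoc', div_le_div_iff_of_pos_right hr0]
      refine (sum_le_sum fun z _ => indicator_var (n - 1) (jb z) (act z) (g z) (hg1 z)).trans ?_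
      rw [sum_const, nsmul_eq_mul, mul_comm]
    refine (sum_le_sum fun i _ => h5 i).trans ?_
    rw [← mul_sum, ← sum_div, ← Nat.cast_sum]
    have h6 : ∑ i ∈ range (2 ^ n), (B.filter fun z => lf z = i).card = B.card := by
      rw [card_eq_sum_card_fiberwise (f := lf) (t := range (2 ^ n)) (s := B)]
      intro z hz
      exact mem_coe.2 (mem_range.2 (hlf z (mem_coe.1 hz)))
    rw [h6]
  have hW := H733.wait n G nu M (2 * (B.card / r)) hM h1 h2 h3 h4
  -- the energy side
  let P : ℕ → ℕ → Prop := fun j a => Spec.nd n j a ⊆ V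
  have hE := H733.en n (fun i => (pl i : ℂ) * Spec.e (-(ξ * i))) V P (fun j a h => h)
  -- the identity
  have hid : ((∑ z ∈ B, ‖S z‖ : ℝ) : ℂ) = r * ∑ j ∈ range m, ∑ a ∈ range (2 ^ j),
      2 ^ (n - j) * (Spec.dB n pl ξ j a * Spec.avC n j a (fun i => G j i * Spec.sg n j i)) := by
    push_cast
    have e1 : ∀ z ∈ B, ((‖S z‖ : ℝ) : ℂ) = ∑ j ∈ range m,
        (if jb z ≤ j ∧ j < act z then g z else 0) * ((Spec.sg n j (lf z) : ℂ)
          * Spec.dB n pl ξ j (Spec.anc n j (lf z))) := by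
      intro z hz
      have hz' := hact z hz
      rw [← ph_mul (S z)]
      have h7 : (range m).filter (fun j => jb z ≤ j ∧ j < act z) = Ico (jb z) (act z) := by
        ext j
        simp only [mem_filter, mem_range, mem_Ico]
        omega
      have h8 : S z = ∑ j ∈ range m, if jb z ≤ j ∧ j < act z then (Spec.sg n j (lf z) : ℂ)
          * Spec.dB n pl ξ j (Spec.anc n j (lf z)) else 0 := by
        rw [← sum_filter, h7]
      change g z * S z = _
      generalize g z = w
      rw [h8, mul_sum]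
      refine sum_congr rfl fun j _ => ?_
      split_ifs with c
      · rfl
      · rw [zero_mul, mul_zero]
    rw [sum_congr rfl e1, sum_comm, mul_sum]
    refine sum_congr rfl fun j hj => ?_
    rw [mem_range] at hj
    rw [← sum_fiberwise_of_maps_to (s := B) (t := range (2 ^ n)) (g := lf)
      (fun z hz => mem_range.2 (hlf z hz))]
    have e2 : ∀ i ∈ range (2 ^ n), ∑ z ∈ B.filter (fun z => lf z = i),
        (if jb z ≤ j ∧ j < act z then g z else 0) * ((Spec.sg n j (lf z) : ℂ)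
          * Spec.dB n pl ξ j (Spec.anc n j (lf z)))
        = r * (G j i * Spec.sg n j i * Spec.dB n pl ξ j (Spec.anc n j i)) := by
      intro i _
      have e3 : ∀ z ∈ B.filter (fun z => lf z = i),
          (if jb z ≤ j ∧ j < act z then g z else 0) * ((Spec.sg n j (lf z) : ℂ)
            * Spec.dB n pl ξ j (Spec.anc n j (lf z)))
          = (if jb z ≤ j ∧ j < act z then g z else 0) * ((Spec.sg n j i : ℂ)
            * Spec.dB n pl ξ j (Spec.anc n j i)) := by
        intro z hz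
        rw [mem_filter] at hz
        rw [hz.2]
      rw [sum_congr rfl e3, ← sum_mul]
      simp only [hG]
      have hrc : (r:ℂ) ≠ 0 := by exact_mod_cast hr0.ne'
      field_simp
    rw [sum_congr rfl e2, ← mul_sum, sum_nodes (n := n) (j := j) (by omega), ]
    congr 1
    refine sum_congr rfl fun a _ => ?_
    have e4 : ∀ i ∈ Spec.nd n j a, G j i * (Spec.sg n j i : ℂ) * Spec.dB n pl ξ j (Spec.anc n j i)
        = G j i * (Spec.sg n j i : ℂ) * Spec.dB n pl ξ j a := by
      intro i hi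
      rw [mem_nd'] at hi
      unfold Spec.anc
      rw [hi]
    rw [sum_congr rfl e4, ← sum_mul]
    unfold Spec.avC
    have h2c : (2:ℂ) ^ (n - j) ≠ 0 := pow_ne_zero _ two_ne_zero
    field_simp
  -- the norm
  have hvan : ∀ j < m, ∀ a, ¬ P j a → Spec.avC n j a (fun i => G j i * Spec.sg n j i) = 0 := by
    intro j hj a ha
    unfold Spec.avC
    rw [sum_eq_zero, zero_div]
    intro i hi
    simp only [hG]
    rw [sum_eq_zero, zero_div, zero_mul]
    intro z hz
    rw [mem_filter] at hz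
    rw [if_neg]
    rintro ⟨hb, _⟩
    refine ha ?_
    have := hV z hz.1 j hb hj
    rw [mem_nd'] at hi
    have e5 : Spec.anc n j (lf z) = a := by unfold Spec.anc; rw [hz.2, hi]
    rwa [e5] at this
  have hnorm : ∑ z ∈ B, ‖S z‖ ≤ r * (2 ^ n * ∑ j ∈ range m, ∑ a ∈ (range (2 ^ j)).filter (P j),
      (1 / 2 ^ j) * (|‖Spec.dB n pl ξ j a‖|
        * |‖Spec.avC n j a (fun i => G j i * Spec.sg n j i)‖|)) := by
    have e6 : ∑ z ∈ B, ‖S z‖ = ‖((∑ z ∈ B, ‖S z‖ : ℝ) : ℂ)‖ := by
      rw [Complex.norm_real, Real.norm_eq_abs, abs_of_nonneg (sum_nonneg fun z _ => norm_nonneg _)]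
    rw [e6, hid, norm_mul, Complex.norm_natCast]
    refine mul_le_mul_of_nonneg_left ?_ hr0.le
    rw [mul_sum]
    refine (norm_sum_le _ _).trans (sum_le_sum fun j hj => ?_)
    rw [mem_range] at hj
    have e7 : ∑ a ∈ range (2 ^ j),
        2 ^ (n - j) * (Spec.dB n pl ξ j a * Spec.avC n j a (fun i => G j i * Spec.sg n j i))
        = ∑ a ∈ (range (2 ^ j)).filter (P j),
        2 ^ (n - j) * (Spec.dB n pl ξ j a * Spec.avC n j a (fun i => G j i * Spec.sg n j i)) := by
      rw [sum_filter]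
      refine sum_congr rfl fun a _ => ?_
      split_ifs with c
      · rfl
      · rw [hvan j hj a c, mul_zero, mul_zero]
    rw [e7, mul_sum]
    refine (norm_sum_le _ _).trans (sum_le_sum fun a _ => ?_)
    rw [norm_mul, norm_mul, norm_pow, Complex.norm_ofNat, abs_norm, abs_norm]
    have : (2:ℝ) ^ n = 2 ^ (n - j) * 2 ^ j := by rw [← pow_add]; congr 1; omega
    rw [this]
    have h2j : (0:ℝ) < 2 ^ j := by positivity
    refine le_of_eq ?_
    field_simp
  have hCS := cs_levels m (fun j => (range (2 ^ j)).filter (P j)) (fun j a => ‖Spec.dB n pl ξ j a‖)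
    (fun j a => ‖Spec.avC n j a (fun i => G j i * Spec.sg n j i)‖)
  refine hnorm.trans ?_
  refine mul_le_mul_of_nonneg_left ?_ hr0.le
  have f1 : ∑ j ∈ range m, ∑ a ∈ (range (2 ^ j)).filter (P j),
      (1 / 2 ^ j) * |‖Spec.dB n pl ξ j a‖| ^ 2 ≤ (1 / 2 ^ n) * ∑ i ∈ V, pl i ^ 2 := by
    have e8 : ∑ i ∈ V, ‖(pl i : ℂ) * Spec.e (-(ξ * i))‖ ^ 2 = ∑ i ∈ V, pl i ^ 2 := by
      refine sum_congr rfl fun i _ => ?_
      rw [norm_mul, norm_e', mul_one, Complex.norm_real, Real.norm_eq_abs, sq_abs]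
    rw [e8] at hE
    refine le_trans ?_ hE
    refine (sum_le_sum_of_subset_of_nonneg (range_subset_range.2 (show m ≤ n by omega)) fun j _ _ =>
      sum_nonneg fun a _ => by positivity).trans (le_of_eq ?_)
    refine sum_congr rfl fun j _ => ?_
    refine sum_congr (by congr) fun a _ => ?_
    rw [abs_norm]
    rfl
  have f2 : ∑ j ∈ range m, ∑ a ∈ (range (2 ^ j)).filter (P j),
      (1 / 2 ^ j) * |‖Spec.avC n j a (fun i => G j i * Spec.sg n j i)‖| ^ 2
      ≤ 6 * M * (2 * (B.card / r)) / 2 ^ n := by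
    refine le_trans ?_ hW
    refine sum_le_sum fun j _ => ?_
    refine (sum_le_sum_of_subset_of_nonneg (filter_subset _ _) fun a _ _ => by positivity).trans
      (le_of_eq ?_)
    refine sum_congr rfl fun a _ => ?_
    rw [abs_norm]
  calc (2:ℝ) ^ n * _ ≤ 2 ^ n * (√((1 / 2 ^ n) * ∑ i ∈ V, pl i ^ 2)
        * √(6 * M * (2 * (B.card / r)) / 2 ^ n)) := by
        refine mul_le_mul_of_nonneg_left ?_ (by positivity)
        refine hCS.trans ?_
        exact mul_le_mul (Real.sqrt_le_sqrt f1) (Real.sqrt_le_sqrt f2) (Real.sqrt_nonneg _)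
          (Real.sqrt_nonneg _)
    _ = √(∑ i ∈ V, pl i ^ 2) * √(12 * M * (B.card / r)) := by
        have hX : 0 ≤ ∑ i ∈ V, pl i ^ 2 := sum_nonneg fun i _ => sq_nonneg _
        have hT : (0:ℝ) < 2 ^ n := by positivity
        have hc : (0:ℝ) ≤ (B.card : ℝ) / r := by positivity
        generalize (2:ℝ) ^ n = T at hT ⊢
        generalize ∑ i ∈ V, pl i ^ 2 = X at hX ⊢
        generalize (B.card : ℝ) / r = c at hc ⊢
        rw [← Real.sqrt_mul (by positivity), ← Real.sqrt_mul hX]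
        have e9 : (1 / T * X) * (6 * M * (2 * c) / T) = (X * (12 * M * c)) / T ^ 2 := by
          field_simp
          ring
        rw [e9, Real.sqrt_div' _ (sq_nonneg T), Real.sqrt_sq hT.le]
        field_simp

end Vale.Agent.P091.H750
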