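import Vale.Agent.P091.H750.HeavyPiece
import Vale.Agent.P091.H750.WaitPiece
import Vale.Agent.P091.H750.Proc

/-!
# P091, row GRIDROW: one top node in the language of the integer tree  (helper750)
-/

set_option autoImplicit false

open Finset

noncomputable section

namespace Vale.Agent.P091.H750

open Vale.Agent.P091

theorem log_sq_le {D : ℝ} (hD : 2 ≤ D) : Real.log D ^ 2 ≤ 4 * D := by
  have h0 : 0 ≤ Real.log D := Real.log_nonneg (by linarith)
  have h1 : Real.log D = 2 * Real.log (√D) := by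
    rw [Real.log_sqrt (by linarith)]; ring
  have h2 : Real.log (√D) ≤ √D := by
    have := Real.log_le_sub_one_of_pos (Real.sqrt_pos.2 (by linarith : 0 < D))
    linarith
  have h3 : Real.log D ≤ 2 * √D := by linarith
  calc Real.log D ^ 2 ≤ (2 * √D) ^ 2 := by gcongr
    _ = 4 * D := by rw [mul_pow, Real.sq_sqrt (by linarith)]; ring

theorem card_le_of_mult {B : Finset ℕ} {lf : ℕ → ℕ} {n r : ℕ} (hlf : ∀ z ∈ B, lf z < 2 ^ n)
    (hmul : ∀ i, (B.filter fun z => lf z = i).card ≤ r) : (B.card : ℝ) ≤ r * 2 ^ n := by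
  have h : B.card = ∑ i ∈ range (2 ^ n), (B.filter fun z => lf z = i).card :=
    card_eq_sum_card_fiberwise fun z hz => mem_coe.2 (mem_range.2 (hlf z (mem_coe.1 hz)))
  have h2 : B.card ≤ 2 ^ n * r := by
    rw [h]
    refine (sum_le_sum fun i _ => hmul i).trans ?_
    rw [sum_const, card_range, smul_eq_mul]
  have : (B.card : ℝ) ≤ 2 ^ n * r := by exact_mod_cast h2
  linarith

open Classical in
theorem main0 (hH : Spec.HEAVY) (C0 : ℝ) (hC0 : 0 ≤ C0) : ∃ C : ℝ, 0 ≤ C ∧ ∀ (D : ℝ), 2 ≤ D →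
    ∀ (m r : ℕ), 1 ≤ r → ∀ (pl : ℕ → ℝ), (∀ i, 0 ≤ pl i) → (∀ i, pl i ≤ Real.exp D) →
    Spec.av (m + 1) 0 0 pl ≤ 1 → ∀ (B : Finset ℕ) (lf : ℕ → ℕ), (∀ z ∈ B, lf z < 2 ^ (m + 1)) →
    (∀ i, (B.filter fun z => lf z = i).card ≤ r) →
    (∀ z ∈ B, ∀ j ≤ m + 1,
      Spec.av (m + 1) j (Spec.anc (m + 1) j (lf z)) pl ≤ Real.log D ^ 2) →
    ∀ (U : Type) [Fintype U] (ξ : U → ℝ) (uu : ℕ → U) (jb : ℕ → ℕ) (V : U → Finset ℕ),
    (∀ z ∈ B, jb z ≤ m) →
    (∀ z ∈ B, ∀ j, jb z ≤ j → j < m →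
      Spec.nd (m + 1) j (Spec.anc (m + 1) j (lf z)) ⊆ V (uu z)) →
    ∑ k, ((V k).card : ℝ) ≤ Real.exp (C0 * D) * 2 ^ (m + 1) →
    ∑ z ∈ B, ‖∑ j ∈ Ico (jb z) m, (Spec.sg (m + 1) j (lf z) : ℂ)
        * Spec.dB (m + 1) pl (ξ (uu z)) j (Spec.anc (m + 1) j (lf z))‖
      ≤ C * D * (r * 2 ^ (m + 1)) := by
  obtain ⟨C1, hC1⟩ := hH (C0 + 2) (by linarith)
  refine ⟨max C1 0 + 16, by positivity, ?_⟩
  intro D hD m r hr pl p0 p1 p2 B lf hlf hmul alive U _ ξ uu jb V hjb hV hVs
  have hr0 : (0:ℝ) < r := by exact_mod_cast hr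
  set n := m + 1 with hn
  set M := Real.exp (-((C0 + 2) * D)) with hM
  have hM0 : 0 < M := Real.exp_pos _
  obtain ⟨act, ha1, ha2, ha3⟩ := exists_act B (fun j z => (uu z, Spec.anc n j (lf z)))
    (fun j => M * (r * 2 ^ (n - j))) (fun j => by positivity) m jb hjb
  have ha2' : ∀ j < m, ∀ v : U × ℕ, ((B.filter fun z => (uu z, Spec.anc n j (lf z)) = v ∧
      jb z ≤ j ∧ j < act z).card : ℝ) ≤ M * (r * 2 ^ (n - j)) := fun j hj v => by
    convert ha2 j hj v
  have ha3' : ∀ j < m, ∀ v : U × ℕ, (∃ z ∈ B, (uu z, Spec.anc n j (lf z)) = v ∧ act z = j) →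
      M * (r * 2 ^ (n - j)) ≤
        ((B.filter fun z => (uu z, Spec.anc n j (lf z)) = v ∧ act z = j).card : ℝ) :=
    fun j hj v hv => by convert ha3 j hj v hv
  set tm : ℕ → ℕ → ℂ := fun z j => (Spec.sg n j (lf z) : ℂ)
        * Spec.dB n pl (ξ (uu z)) j (Spec.anc n j (lf z)) with htm
  have htm1 : ∀ z ∈ B, ∀ j < m, ‖tm z j‖ ≤ Real.log D ^ 2 := by
    intro z hz j hj
    simp only [htm]
    rw [norm_mul, norm_sg, one_mul]
    exact (norm_dB_le (by omega) p0 _).trans (alive z hz j (by omega))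
  have hlam : 0 ≤ Real.log D ^ 2 := sq_nonneg _
  -- pointwise decomposition
  have hpt : ∀ z ∈ B, ‖∑ j ∈ Ico (jb z) m, tm z j‖ ≤ ‖∑ j ∈ Ico (jb z) (act z), tm z j‖
      + (3 * Real.log D ^ 2 + if act z < m then ‖∑ j ∈ Ico (act z + 3) m, tm z j‖ else 0) := by
    intro z hz
    obtain ⟨h1, h2⟩ := ha1 z hz
    rw [← sum_Ico_consecutive _ h1 h2]
    refine (norm_add_le _ _).trans ?_
    gcongr
    split_ifs with c
    · have e1 : ∑ j ∈ Ico (act z) m, tm z j = ∑ j ∈ Ico (act z) (min (act z + 3) m), tm z j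
          + ∑ j ∈ Ico (act z + 3) m, tm z j := by
        rw [← sum_Ico_consecutive _ (show act z ≤ min (act z + 3) m by omega) (min_le_right _ _)]
        congr 1
        rcases le_total (act z + 3) m with h | h
        · rw [min_eq_left h]
        · rw [min_eq_right h, Ico_self, Ico_eq_empty_of_le h]
      rw [e1]
      refine (norm_add_le _ _).trans ?_
      gcongr
      refine (norm_sum_le _ _).trans ?_
      refine (sum_le_sum fun j hj => htm1 z hz j (by rw [mem_Ico] at hj; omega)).trans ?_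
      rw [sum_const, nsmul_eq_mul, Nat.card_Ico]
      gcongr
      have : min (act z + 3) m - act z ≤ 3 := by omega
      exact_mod_cast this
    · have : act z = m := by omega
      rw [this, Ico_self, sum_empty, norm_zero]
      positivity
  -- the activated part
  have hheavy := heavy_piece (C1 := C1) (C0 := C0 + 2) D m (fun ι _ d => hC1 D n ι d hD) hr pl p0 p1
    p2 B lf hlf hmul alive ξ uu act ha3'
  -- the waiting part
  have hwait : ∑ z ∈ B, ‖∑ j ∈ Ico (jb z) (act z), tm z j‖ ≤ 4 * (r * 2 ^ n) := by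
    rw [← sum_fiberwise B uu]
    have e1 : ∀ k : U, ∑ z ∈ B.filter (fun z => uu z = k), ‖∑ j ∈ Ico (jb z) (act z), tm z j‖
        ≤ r * (√(Real.exp (2 * D) * (V k).card)
          * √(12 * M * ((B.filter fun z => uu z = k).card / r))) := by
      intro k
      have h1 : ∑ z ∈ B.filter (fun z => uu z = k), ‖∑ j ∈ Ico (jb z) (act z), tm z j‖
          = ∑ z ∈ B.filter (fun z => uu z = k), ‖∑ j ∈ Ico (jb z) (act z),
            (Spec.sg n j (lf z) : ℂ) * Spec.dB n pl (ξ k) j (Spec.anc n j (lf z))‖ := by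
        refine sum_congr rfl fun z hz => ?_
        rw [mem_filter] at hz
        simp only [htm]
        rw [hz.2]
      rw [h1]
      refine (wait_letter m hr pl (ξ k) hM0.le (B.filter fun z => uu z = k) lf jb act
        (fun z hz => hlf z (mem_filter.1 hz).1) (fun z hz => (ha1 z (mem_filter.1 hz).1).2)
        ?_ (V k) ?_).trans ?_
      · intro j hj a
        refine le_trans ?_ (ha2' j hj (k, a))
        rw [filter_filter, Nat.cast_le]
        refine card_le_card fun z hz => ?_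
        rw [mem_filter] at hz ⊢
        obtain ⟨hz, hz1, hz2, hz3⟩ := hz
        exact ⟨hz, by rw [hz1, hz2], hz3⟩
      · intro z hz j h1 h2
        rw [mem_filter] at hz
        rw [← hz.2]
        exact hV z hz.1 j h1 h2
      · refine mul_le_mul_of_nonneg_left ?_ hr0.le
        refine mul_le_mul_of_nonneg_right ?_ (Real.sqrt_nonneg _)
        refine Real.sqrt_le_sqrt ?_
        have h2 : ∀ i, pl i ^ 2 ≤ Real.exp (2 * D) := by
          intro i
          calc pl i ^ 2 ≤ Real.exp D ^ 2 := pow_le_pow_left₀ (p0 i) (p1 i) 2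
            _ = Real.exp (2 * D) := by rw [← Real.exp_nat_mul]; norm_num
        refine (sum_le_sum fun i _ => h2 i).trans ?_
        rw [sum_const, nsmul_eq_mul, mul_comm]
    refine (sum_le_sum fun k _ => e1 k).trans ?_
    rw [← mul_sum]
    have h3 := Real.sum_sqrt_mul_sqrt_le (univ : Finset U)
      (f := fun k => Real.exp (2 * D) * (V k).card)
      (g := fun k => 12 * M * ((B.filter fun z => uu z = k).card / r))
      (fun k => by positivity) (fun k => by positivity)
    have h4 : ∑ k : U, Real.exp (2 * D) * ((V k).card : ℝ)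
        ≤ Real.exp ((C0 + 2) * D) * 2 ^ n := by
      rw [← mul_sum]
      calc Real.exp (2 * D) * ∑ k : U, ((V k).card : ℝ)
          ≤ Real.exp (2 * D) * (Real.exp (C0 * D) * 2 ^ n) := by gcongr
        _ = Real.exp ((C0 + 2) * D) * 2 ^ n := by
          rw [← mul_assoc, ← Real.exp_add]; congr 2; ring
    have h5 : ∑ k : U, 12 * M * (((B.filter fun z => uu z = k).card : ℝ) / r)
        ≤ 12 * M * 2 ^ n := by
      rw [← mul_sum, ← sum_div]
      have : ∑ k : U, ((B.filter fun z => uu z = k).card : ℝ) = B.card := by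
        rw [← Nat.cast_sum]
        congr 1
        exact (card_eq_sum_card_fiberwise (f := uu) (t := univ) fun z _ => by simp).symm
      rw [this]
      have h6 := card_le_of_mult hlf hmul
      have : (B.card : ℝ) / r ≤ 2 ^ n := by
        rw [div_le_iff₀ hr0]; linarith
      gcongr
    have h7 : √(Real.exp ((C0 + 2) * D) * 2 ^ n) * √(12 * M * 2 ^ n) ≤ 4 * 2 ^ n := by
      rw [← Real.sqrt_mul (by positivity)]
      have : Real.exp ((C0 + 2) * D) * 2 ^ n * (12 * M * 2 ^ n) = 12 * (2 ^ n) ^ 2 := by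
        have h8 : Real.exp ((C0 + 2) * D) * M = 1 := by
          rw [hM, ← Real.exp_add, add_neg_cancel, Real.exp_zero]
        linear_combination (12 * (2 ^ n) ^ 2) * h8
      rw [this]
      calc √(12 * ((2:ℝ) ^ n) ^ 2) ≤ √((4 * 2 ^ n) ^ 2) := by
            refine Real.sqrt_le_sqrt ?_
            rw [mul_pow]
            have : (0:ℝ) ≤ (2 ^ n) ^ 2 := by positivity
            nlinarith
        _ = 4 * 2 ^ n := Real.sqrt_sq (by positivity)
    calc (r:ℝ) * _ ≤ r * (√(Real.exp ((C0 + 2) * D) * 2 ^ n) * √(12 * M * 2 ^ n)) := by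
          refine mul_le_mul_of_nonneg_left (h3.trans ?_) hr0.le
          exact mul_le_mul (Real.sqrt_le_sqrt h4) (Real.sqrt_le_sqrt h5) (Real.sqrt_nonneg _)
            (Real.sqrt_nonneg _)
      _ ≤ r * (4 * 2 ^ n) := mul_le_mul_of_nonneg_left h7 hr0.le
      _ = 4 * (r * 2 ^ n) := by ring
  -- total
  refine (sum_le_sum hpt).trans ?_
  rw [sum_add_distrib, sum_add_distrib, ← sum_filter, sum_const, nsmul_eq_mul]
  have hcard := card_le_of_mult hlf hmul
  have hlog := log_sq_le hD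
  have hT : (0:ℝ) < r * 2 ^ n := by positivity
  have h8 : (B.card : ℝ) * (3 * Real.log D ^ 2) ≤ (r * 2 ^ n) * (12 * D) := by
    refine mul_le_mul hcard (by linarith) (by positivity) hT.le
  have h9 : C1 * D * (r * 2 ^ n) ≤ max C1 0 * D * (r * 2 ^ n) := by
    gcongr
    exact le_max_left _ _
  have h10 : 4 * ((r:ℝ) * 2 ^ n) ≤ 4 * D * (r * 2 ^ n) := by
    have : (4:ℝ) ≤ 4 * D := by linarith
    nlinarith
  have h11 : ∑ z ∈ B.filter (fun z => act z < m), ‖∑ j ∈ Ico (act z + 3) m, tm z j‖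
      ≤ C1 * D * (r * 2 ^ n) := hheavy
  nlinarith [hwait, h8, h9, h10, h11]

end Vale.Agent.P091.H750
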