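import Vale.Agent.P091.H74.Spec

/-!
# P091, row GRIDROW: small facts on 74's integer tree  (helper750)
-/

set_option autoImplicit false

open Finset

noncomputable section

namespace Vale.Agent.P091.H750

open Vale.Agent.P091

theorem norm_e' (t : ℝ) : ‖Spec.e t‖ = 1 := by
  unfold Spec.e
  rw [show (2 * (Real.pi:ℂ) * Complex.I * t) = ((2 * Real.pi * t : ℝ) : ℂ) * Complex.I by
    push_cast; ring]
  exact Complex.norm_exp_ofReal_mul_I _

theorem mem_nd' {n j a i : ℕ} : i ∈ Spec.nd n j a ↔ i / 2 ^ (n - j) = a := by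
  unfold Spec.nd
  rw [Finset.mem_Ico, Nat.div_eq_iff (by positivity)]
  have : 0 < 2 ^ (n - j) := by positivity
  constructor
  · rintro ⟨h, h'⟩
    constructor
    · nlinarith
    · rw [Nat.add_mul] at h'; omega
  · rintro ⟨h, h'⟩
    refine ⟨by omega, ?_⟩
    rw [Nat.add_mul]; omega

theorem anc_lt {n j i : ℕ} (hj : j ≤ n) (hi : i < 2 ^ n) : Spec.anc n j i < 2 ^ j := by
  unfold Spec.anc
  rw [Nat.div_lt_iff_lt_mul (by positivity), ← pow_add]
  have : j + (n - j) = n := by omega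
  rw [this]; exact hi

theorem mem_nd_anc (n j i : ℕ) : i ∈ Spec.nd n j (Spec.anc n j i) := mem_nd'.2 rfl

/-- a sum over all leaves is a sum over the nodes of level `j` -/
theorem sum_nodes {E : Type*} [AddCommMonoid E] {n j : ℕ} (hj : j ≤ n) (h : ℕ → E) :
    ∑ i ∈ range (2 ^ n), h i = ∑ a ∈ range (2 ^ j), ∑ i ∈ Spec.nd n j a, h i := by
  rw [← sum_fiberwise_of_maps_to (s := range (2 ^ n)) (t := range (2 ^ j))
    (g := Spec.anc n j) (fun i hi => mem_range.2 (anc_lt hj (mem_range.1 hi)))]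
  refine sum_congr rfl fun a ha => sum_congr ?_ fun _ _ => rfl
  ext i
  rw [mem_filter, mem_range, mem_nd']
  unfold Spec.anc
  constructor
  · exact fun h => h.2
  · intro h
    refine ⟨?_, h⟩
    rw [mem_range] at ha
    have h1 : i < (a + 1) * 2 ^ (n - j) := by
      rw [← h]
      exact (Nat.div_lt_iff_lt_mul (by positivity)).1 (Nat.lt_succ_self _)
    calc i < (a + 1) * 2 ^ (n - j) := h1
      _ ≤ 2 ^ j * 2 ^ (n - j) := Nat.mul_le_mul_right _ ha
      _ = 2 ^ n := by rw [← pow_add]; congr 1; omega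

theorem norm_dB_le {n j a : ℕ} (hj : j + 1 ≤ n) {p : ℕ → ℝ} (hp : ∀ i, 0 ≤ p i) (ξ : ℝ) :
    ‖Spec.dB n p ξ j a‖ ≤ Spec.av n j a p := by
  have hB : ∀ b, ‖Spec.BB n p ξ (j + 1) b‖ ≤ Spec.av n (j + 1) b p := by
    intro b
    unfold Spec.BB Spec.avC Spec.av
    rw [norm_div, norm_pow, Complex.norm_ofNat]
    refine div_le_div_of_nonneg_right ?_ (by positivity)
    refine (norm_sum_le _ _).trans (sum_le_sum fun i _ => ?_)
    rw [norm_mul, norm_e', mul_one, Complex.norm_real, Real.norm_eq_abs, abs_of_nonneg (hp i)]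
  unfold Spec.dB
  have h1 := norm_sub_le (Spec.BB n p ξ (j + 1) (2 * a)) (Spec.BB n p ξ (j + 1) (2 * a + 1))
  have h2 := hB (2 * a)
  have h3 := hB (2 * a + 1)
  have hav : Spec.av n j a p = (Spec.av n (j + 1) (2 * a) p + Spec.av n (j + 1) (2 * a + 1) p) / 2 := by
    unfold Spec.av
    have hpow : 2 ^ (n - j) = 2 * 2 ^ (n - (j + 1)) := by
      rw [← pow_succ']; congr 1; omega
    have hsum : ∑ i ∈ Spec.nd n j a, p i = ∑ i ∈ Spec.nd n (j + 1) (2 * a), p i
        + ∑ i ∈ Spec.nd n (j + 1) (2 * a + 1), p i := by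
      unfold Spec.nd
      rw [sum_Ico_consecutive]
      · rw [hpow]
        congr 2
        · ring
        · ring
      · exact Nat.mul_le_mul_right _ (by omega)
      · exact Nat.mul_le_mul_right _ (by omega)
    rw [hsum]
    have : (2:ℝ) ^ (n - j) = 2 * 2 ^ (n - (j + 1)) := by exact_mod_cast hpow
    rw [this]
    have h0 : (0:ℝ) < 2 ^ (n - (j + 1)) := by positivity
    field_simp
  rw [norm_div, Complex.norm_ofNat, hav]
  linarith

/-- the phase which makes `w` real and nonnegative -/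
def ph (w : ℂ) : ℂ := (starRingEnd ℂ) w / ‖w‖

theorem ph_mul (w : ℂ) : ph w * w = ‖w‖ := by
  unfold ph
  by_cases h : w = 0
  · subst h; simp
  · have h1 : (‖w‖ : ℂ) ≠ 0 := by
      rw [Complex.ofReal_ne_zero]; exact norm_ne_zero_iff.2 h
    rw [div_mul_eq_mul_div, mul_comm ((starRingEnd ℂ) w) w, Complex.mul_conj,
      Complex.normSq_eq_norm_sq]
    field_simp
    push_cast
    ring

theorem norm_ph (w : ℂ) : ‖ph w‖ ≤ 1 := by
  unfold ph
  rw [norm_div, Complex.norm_real, norm_norm, RCLike.norm_conj]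
  exact div_self_le_one _

theorem norm_sg (n j i : ℕ) : ‖((Spec.sg n j i : ℝ) : ℂ)‖ = 1 := by
  unfold Spec.sg; split_ifs <;> simp

end Vale.Agent.P091.H750
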